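import Crest.Agent.S0423_aux.Final

/-!
The relation between the bounded function `F` (iterated average of `truncExpWeight`) and the
admissible function `A` (iterated average of the positive part).
-/

set_option autoImplicit false

namespace Crest.Agent.S0423aux

open MeasureTheory Set

theorem measurable_T {F : ℝ → ℝ} (hF : Measurable F) (a : ℝ) : Measurable (T a F) := by
  unfold T
  have h : StronglyMeasurable (fun z : ℝ × ℝ => F (z.1 + a * z.2)) :=
    (hF.comp (by fun_prop)).stronglyMeasurable
  exact (h.integral_prod_right (ν := μe)).measurable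

/-- `F` is measurable with values in `[0,1]`, `A` is admissible with `v + m ≤ A v`, and
`1 - F = Psi A`. -/
structure Rel (F A : ℝ → ℝ) (m : ℝ) : Prop where
  meas : Measurable F
  nonneg : ∀ y, 0 ≤ F y
  le_one : ∀ y, F y ≤ 1
  adm : Adm A
  lower : ∀ v, v + m ≤ A v
  eq : ∀ w, 1 - F w = Psi A w

theorem measurable_truncExpWeight : Measurable Crest.AlgGeometry.truncExpWeight := by
  unfold Crest.AlgGeometry.truncExpWeight
  exact Measurable.ite measurableSet_Iic measurable_const (by fun_prop)

theorem truncExpWeight_nonneg (y : ℝ) : 0 ≤ Crest.AlgGeometry.truncExpWeight y := by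
  unfold Crest.AlgGeometry.truncExpWeight
  split_ifs with h
  · norm_num
  · rw [not_le] at h
    positivity

theorem truncExpWeight_le_one (y : ℝ) : Crest.AlgGeometry.truncExpWeight y ≤ 1 := by
  unfold Crest.AlgGeometry.truncExpWeight
  split_ifs with h
  · exact le_rfl
  · have h1 : 1 + y ≤ Real.exp y := by linarith [Real.add_one_le_exp y]
    have h2 : Real.exp y * Real.exp (-y) = 1 := by rw [← Real.exp_add]; simp
    calc (1 + y) * Real.exp (-y) ≤ Real.exp y * Real.exp (-y) :=
          mul_le_mul_of_nonneg_right h1 (Real.exp_pos _).le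
      _ = 1 := h2

theorem Rel_base : Rel Crest.AlgGeometry.truncExpWeight pos 0 where
  meas := measurable_truncExpWeight
  nonneg := truncExpWeight_nonneg
  le_one := truncExpWeight_le_one
  adm := Adm_pos
  lower := fun v => by rw [add_zero]; exact le_max_left _ _
  eq := fun w => (Psi_pos w).symm

theorem Rel.integrable {F A : ℝ → ℝ} {m : ℝ} (h : Rel F A m) (a y : ℝ) :
    Integrable (fun t => F (y + a * t)) μe :=
  integrable_μe_of_bdd (h.meas.comp (by fun_prop))
    (fun t => abs_le.mpr ⟨by linarith [h.nonneg (y + a * t)], h.le_one _⟩)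

theorem Rel.T {F A : ℝ → ℝ} {m : ℝ} (h : Rel F A m) (a : ℝ) :
    Rel (T a F) (T a A) (m + a) where
  meas := measurable_T h.meas a
  nonneg := fun y => integral_nonneg (fun _ => h.nonneg _)
  le_one := by
    intro y
    have : Crest.Agent.S0423aux.T a F y ≤ ∫ _t, (1:ℝ) ∂μe :=
      integral_mono (h.integrable a y) (integrable_const _) (fun _ => h.le_one _)
    simpa using this
  adm := h.adm.T a
  lower := h.adm.T_lower a h.lower
  eq := by
    intro w
    rw [← T_Psi h.adm a w]
    unfold Crest.Agent.S0423aux.T
    have e : (fun t => Psi A (w + a * t)) = fun t => 1 - F (w + a * t) := by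
      ext t; rw [h.eq]
    rw [e, integral_sub (integrable_const _) (h.integrable a w)]
    simp

theorem Rel.final {F A : ℝ → ℝ} (h : Rel F A 0) : F (4 / 3) ≤ 1 - 4 / 9 * Real.exp (-(1 / 3)) := by
  have h1 := h.adm.Psi_lower (fun v => by simpa using h.lower v)
  rw [← h.eq] at h1
  linarith

end Crest.Agent.S0423aux
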