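import Crest.Agent.S0423_aux.JRec
import Crest.Agent.S0423_aux.Rel

/-! First half of S0423: `Jop` recursion (helper24) + the 1-D chain `Rel` (helper28). -/

set_option autoImplicit false

namespace Crest.Agent.S0423lib

open MeasureTheory Set

theorem Part1_T_eq_Eop (c : ℝ) (φ : ℝ → ℝ) : Crest.Agent.S0423aux.T c φ = Eop c φ := by
  funext y
  unfold Crest.Agent.S0423aux.T Eop
  rw [Crest.Agent.S0423aux.integral_μe]

theorem Part1_Rel_Jop {n : ℕ} (a : Fin n → ℝ) {F A : ℝ → ℝ} {m : ℝ}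
    (h : Crest.Agent.S0423aux.Rel F A m) :
    ∃ A', Crest.Agent.S0423aux.Rel (Jop a F) A' (m + ∑ i, a i) := by
  induction n generalizing F A m with
  | zero =>
    have : Jop a F = F := funext fun s => Jop_zero a F s
    rw [this]
    exact ⟨A, by simpa using h⟩
  | succ n ih =>
    have hbm : BM F := ⟨h.meas, h.nonneg, h.le_one⟩
    have h1 : Jop a F = Jop (fun j => a ((0 : Fin (n + 1)).succAbove j)) (Eop (a 0) F) :=
      funext fun s => Jop_succ a 0 hbm s
    have h2 := h.T (a 0)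
    rw [Part1_T_eq_Eop] at h2
    obtain ⟨A', hA'⟩ := ih (fun j => a ((0 : Fin (n + 1)).succAbove j)) h2
    refine ⟨A', ?_⟩
    rw [h1]
    have e : m + ∑ i, a i = m + a 0 + ∑ j, a ((0 : Fin (n + 1)).succAbove j) := by
      rw [Fin.sum_univ_succAbove a 0]; ring
    rw [e]
    exact hA'

/-- The first conjunct of S0423, verbatim. -/
theorem part1' :
    ∀ (N : ℕ) (a : Fin N → ℝ), 1 ≤ N → ∑ i, a i = 0 →
      Real.exp (4 / 3) / (4 / 3) *
          ∫ x in Set.pi Set.univ (fun _ : Fin N => Set.Ioi (0 : ℝ)),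
            Crest.AlgGeometry.truncExpWeight (4 / 3 + ∑ i, a i * x i) * Real.exp (-∑ i, x i)
        ≤ 3 / 4 * Real.exp (4 / 3) - Real.exp 1 / 3 := by
  intro N a _ ha
  obtain ⟨A', hA'⟩ := Part1_Rel_Jop a Crest.Agent.S0423aux.Rel_base
  rw [ha, add_zero] at hA'
  have h := hA'.final
  unfold Jop at h
  have hpos : 0 < Real.exp (4 / 3) / (4 / 3) := by positivity
  have h2 := mul_le_mul_of_nonneg_left h hpos.le
  refine h2.trans (le_of_eq ?_)
  have h3 : Real.exp (4 / 3) * Real.exp (-(1 / 3)) = Real.exp 1 := by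
    rw [← Real.exp_add]; norm_num
  calc Real.exp (4 / 3) / (4 / 3) * (1 - 4 / 9 * Real.exp (-(1 / 3)))
      = 3 / 4 * Real.exp (4 / 3) - (Real.exp (4 / 3) * Real.exp (-(1 / 3))) / 3 := by ring
    _ = 3 / 4 * Real.exp (4 / 3) - Real.exp 1 / 3 := by rw [h3]

end Crest.Agent.S0423lib
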