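import Crest.Agent.S0423_aux.EBasic

/-! T12. Explicit evaluations. -/

set_option autoImplicit false

namespace Crest.Agent.S0423lib

open MeasureTheory Set

theorem Explicit_integral_Ioc {y : ℝ} (hy : 0 ≤ y) :
    ∫ s in Ioc (0 : ℝ) y, s * Real.exp (-s) = 1 - (1 + y) * Real.exp (-y) := by
  rw [← intervalIntegral.integral_of_le hy]
  have hderiv : ∀ x ∈ uIcc (0 : ℝ) y,
      HasDerivAt (fun s : ℝ => -((1 + s) * Real.exp (-s))) (x * Real.exp (-x)) x := by
    intro x _
    have h1 : HasDerivAt (fun s : ℝ => 1 + s) 1 x := (hasDerivAt_id x).const_add 1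
    have h2 : HasDerivAt (fun s : ℝ => Real.exp (-s)) (Real.exp (-x) * (-1)) x :=
      (Real.hasDerivAt_exp (-x)).comp x (hasDerivAt_neg x)
    have h3 := (h1.mul h2).neg
    have e : -(1 * Real.exp (-x) + (1 + x) * (Real.exp (-x) * -1)) = x * Real.exp (-x) := by ring
    rw [e] at h3
    exact h3
  rw [intervalIntegral.integral_eq_sub_of_hasDerivAt hderiv]
  · simp
    ring
  · apply Continuous.intervalIntegrable
    fun_prop

/-- D1 -/
theorem truncExpWeight_eq (y : ℝ) : Crest.AlgGeometry.truncExpWeight y = 1 - Wop Hv y := by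
  unfold Crest.AlgGeometry.truncExpWeight Wop
  by_cases hy : y ≤ 0
  · rw [if_pos hy]
    have : ∫ s in Ioi (0 : ℝ), Hv (y - s) * (s * Real.exp (-s)) = ∫ s in Ioi (0 : ℝ), (0 : ℝ) := by
      apply setIntegral_congr_fun measurableSet_Ioi
      intro s hs
      have hs' : (0 : ℝ) < s := hs
      have : ¬ 0 ≤ y - s := by linarith
      simp only [Hv, if_neg this, zero_mul]
    rw [this]; simp
  · rw [if_neg hy]
    push Not at hy
    have hfun : (fun s => Hv (y - s) * (s * Real.exp (-s)))
        = (Iic y).indicator (fun s => s * Real.exp (-s)) := by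
      funext s
      by_cases hs : s ≤ y
      · rw [indicator_of_mem (show s ∈ Iic y from hs)]
        have : 0 ≤ y - s := by linarith
        simp only [Hv, if_pos this, one_mul]
      · rw [indicator_of_notMem (show s ∉ Iic y from hs)]
        have : ¬ 0 ≤ y - s := by linarith
        simp only [Hv, if_neg this, zero_mul]
    rw [hfun, setIntegral_indicator measurableSet_Iic, Ioi_inter_Iic, Explicit_integral_Ioc hy.le]
    ring

/-- P2c -/
theorem Wop_exp_half (C y : ℝ) :
    Wop (fun r => C * Real.exp (1 / 2 * r)) y = C * (4 / 9) * Real.exp (1 / 2 * y) := by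
  unfold Wop
  have h := integral_id_mul_exp (b := 3 / 2) (by norm_num)
  have hfun : (fun s : ℝ => C * Real.exp (1 / 2 * (y - s)) * (s * Real.exp (-s)))
      = fun s => (C * Real.exp (1 / 2 * y)) * (s * Real.exp (-(3 / 2 * s))) := by
    funext s
    have : Real.exp (1 / 2 * (y - s)) * Real.exp (-s) = Real.exp (1 / 2 * y) * Real.exp (-(3 / 2 * s)) := by
      rw [← Real.exp_add, ← Real.exp_add]; congr 1; ring
    calc C * Real.exp (1 / 2 * (y - s)) * (s * Real.exp (-s))
        = C * s * (Real.exp (1 / 2 * (y - s)) * Real.exp (-s)) := by ring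
      _ = _ := by rw [this]; ring
  rw [hfun, integral_const_mul, h]
  norm_num
  ring

theorem integrableOn_Wop_exp_half (C y : ℝ) :
    IntegrableOn (fun s => (C * Real.exp (1 / 2 * (y - s))) * (s * Real.exp (-s))) (Ioi 0) := by
  have hfun : (fun s : ℝ => C * Real.exp (1 / 2 * (y - s)) * (s * Real.exp (-s)))
      = fun s => (C * Real.exp (1 / 2 * y)) * (s * Real.exp (-(3 / 2 * s))) := by
    funext s
    have : Real.exp (1 / 2 * (y - s)) * Real.exp (-s) = Real.exp (1 / 2 * y) * Real.exp (-(3 / 2 * s)) := by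
      rw [← Real.exp_add, ← Real.exp_add]; congr 1; ring
    calc C * Real.exp (1 / 2 * (y - s)) * (s * Real.exp (-s))
        = C * s * (Real.exp (1 / 2 * (y - s)) * Real.exp (-s)) := by ring
      _ = _ := by rw [this]; ring
  rw [hfun]
  exact (integrableOn_id_mul_exp (b := 3 / 2) (by norm_num)).const_mul _

theorem exp_neg_third_le : Real.exp (-(1 / 3)) ≤ 18 / 25 := by
  have h := Real.quadratic_le_exp_of_nonneg (x := 1 / 3) (by norm_num)
  rw [Real.exp_neg]
  have h2 : (25 / 18 : ℝ) ≤ Real.exp (1 / 3) := by linarith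
  calc (Real.exp (1 / 3))⁻¹ ≤ (25 / 18 : ℝ)⁻¹ := inv_anti₀ (by norm_num) h2
    _ = 18 / 25 := by norm_num

theorem numeric_zero_case :
    (1 + 4 / 3) * Real.exp (-(4 / 3)) ≤ 1 - 4 / 9 * Real.exp (-(1 / 3)) := by
  have h := exp_neg_third_le
  have hpos := Real.exp_pos (-(1 / 3))
  have h4 : Real.exp (-(4 / 3)) = Real.exp (-(1 / 3)) ^ 4 := by
    rw [← Real.exp_nat_mul]; congr 1; norm_num
  rw [h4]
  have h5 : Real.exp (-(1 / 3)) ^ 4 ≤ (18 / 25 : ℝ) ^ 4 := pow_le_pow_left₀ hpos.le h 4
  norm_num at h5 ⊢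
  linarith

end Crest.Agent.S0423lib
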