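import Crest.Agent.S0423_aux.JWop
import Crest.Agent.S0423_aux.Explicit

/-! Second half of S0423: the bound is approached by `a = (2, -2/n, …, -2/n)`. -/

set_option autoImplicit false

namespace Crest.Agent.S0423lib

open MeasureTheory Set Filter Topology

theorem truncExpWeight_fun :
    Crest.AlgGeometry.truncExpWeight = fun y => 1 - Wop Hv y := by
  funext y; exact truncExpWeight_eq y

theorem Jop_trunc {n : ℕ} (a : Fin n → ℝ) (s : ℝ) :
    Jop a Crest.AlgGeometry.truncExpWeight s = 1 - Wop (Jop a Hv) s := by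
  rw [truncExpWeight_fun, Jop_one_sub a (BM_Wop BM_Hv), Jop_Wop a BM_Hv]

theorem Jop_const_le_exp {δ κ : ℝ} (hκ : 0 < κ) (hδ : 0 ≤ δ) :
    ∀ (n : ℕ) {φ : ℝ → ℝ} (_ : BM φ) {C : ℝ} (_ : 0 ≤ C) (_ : ∀ y, φ y ≤ C * Real.exp (κ * y)) (y : ℝ),
      Jop (fun _ : Fin n => -δ) φ y ≤ C / (1 + κ * δ) ^ n * Real.exp (κ * y) := by
  intro n
  induction n with
  | zero =>
    intro φ _ C _ h y
    rw [Jop_zero]; simpa using h y
  | succ n ih =>
    intro φ hφ C hC h y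
    rw [Jop_succ _ 0 hφ]
    have hpos : 0 < 1 + κ * δ := by positivity
    have := ih (BM_Eop hφ (-δ)) (C := C / (1 + κ * δ)) (by positivity)
      (fun y => Eop_le_exp hφ hC hκ hδ h y) y
    calc _ ≤ C / (1 + κ * δ) / (1 + κ * δ) ^ n * Real.exp (κ * y) := this
      _ = C / (1 + κ * δ) ^ (n + 1) * Real.exp (κ * y) := by
        rw [pow_succ, div_div]; ring_nf

theorem part2_bound (n : ℕ) (hn : 1 ≤ n) :
    1 - 4 / 9 * Real.exp (2 / 3) / (1 + 1 / (n : ℝ)) ^ n ≤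
      Jop (Fin.cons 2 (fun _ => -(2 / (n : ℝ))) : Fin (n + 1) → ℝ)
        Crest.AlgGeometry.truncExpWeight (4 / 3) := by
  set a : Fin (n + 1) → ℝ := Fin.cons 2 (fun _ => -(2 / (n : ℝ))) with ha
  have hfun : Jop a Hv = Jop (fun _ : Fin n => -(2 / (n : ℝ))) (Eop 2 Hv) := by
    funext s
    rw [Jop_succ a 0 BM_Hv s]
    simp [ha]
  have hn0 : (0 : ℝ) < n := by exact_mod_cast hn
  have hle : ∀ r, Jop a Hv r ≤ 1 / (1 + 1 / (n : ℝ)) ^ n * Real.exp (1 / 2 * r) := by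
    intro r
    rw [hfun]
    have := Jop_const_le_exp (δ := 2 / (n : ℝ)) (κ := 1 / 2) (by norm_num) (by positivity) n
      (BM_Eop BM_Hv 2) (C := 1) (by norm_num)
      (fun y => by
        rw [Eop_Hv_pos (by norm_num)]
        calc min 1 (Real.exp (y / 2)) ≤ Real.exp (y / 2) := min_le_right _ _
          _ = 1 * Real.exp (1 / 2 * y) := by rw [one_mul]; congr 1; ring) r
    have e : 1 + 1 / 2 * (2 / (n : ℝ)) = 1 + 1 / (n : ℝ) := by ring
    rwa [e] at this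
  have hW : Wop (Jop a Hv) (4 / 3) ≤ 1 / (1 + 1 / (n : ℝ)) ^ n * (4 / 9) * Real.exp (1 / 2 * (4 / 3)) := by
    rw [← Wop_exp_half]
    unfold Wop
    apply setIntegral_mono_on (integrableOn_Wop (BM_Jop a BM_Hv) _) (integrableOn_Wop_exp_half _ _)
      measurableSet_Ioi
    intro s hs
    have hs' : (0 : ℝ) < s := hs
    exact mul_le_mul_of_nonneg_right (hle _) (by positivity)
  rw [Jop_trunc]
  have e2 : (1 / 2 * (4 / 3) : ℝ) = 2 / 3 := by norm_num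
  rw [e2] at hW
  have : 1 / (1 + 1 / (n : ℝ)) ^ n * (4 / 9) * Real.exp (2 / 3)
      = 4 / 9 * Real.exp (2 / 3) / (1 + 1 / (n : ℝ)) ^ n := by ring
  linarith

theorem sum_cons (n : ℕ) (hn : 1 ≤ n) :
    ∑ i, (Fin.cons 2 (fun _ => -(2 / (n : ℝ))) : Fin (n + 1) → ℝ) i = 0 := by
  have hn0 : (n : ℝ) ≠ 0 := by
    have : (0 : ℝ) < n := by exact_mod_cast hn
    exact this.ne'
  rw [Fin.sum_univ_succ]
  simp
  field_simp
  ring

theorem part2_limit (ε : ℝ) (hε : 0 < ε) :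
    ∃ n : ℕ, 1 ≤ n ∧ 3 / 4 * Real.exp (4 / 3) - Real.exp 1 / 3 - ε <
      Real.exp (4 / 3) / (4 / 3) * (1 - 4 / 9 * Real.exp (2 / 3) / (1 + 1 / (n : ℝ)) ^ n) := by
  have h1 : Tendsto (fun n : ℕ => (1 + 1 / (n : ℝ)) ^ n) atTop (𝓝 (Real.exp 1)) :=
    Real.tendsto_one_add_div_pow_exp 1
  have h2 : Tendsto (fun n : ℕ => Real.exp (4 / 3) / (4 / 3) *
      (1 - 4 / 9 * Real.exp (2 / 3) / (1 + 1 / (n : ℝ)) ^ n)) atTop
      (𝓝 (Real.exp (4 / 3) / (4 / 3) * (1 - 4 / 9 * Real.exp (2 / 3) / Real.exp 1))) :=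
    (tendsto_const_nhds.sub (tendsto_const_nhds.div h1 (Real.exp_pos 1).ne')).const_mul _
  have e : Real.exp (4 / 3) / (4 / 3) * (1 - 4 / 9 * Real.exp (2 / 3) / Real.exp 1)
      = 3 / 4 * Real.exp (4 / 3) - Real.exp 1 / 3 := by
    have h3 : Real.exp (4 / 3) * Real.exp (2 / 3) = Real.exp 1 * Real.exp 1 := by
      rw [← Real.exp_add, ← Real.exp_add]; norm_num
    have := (Real.exp_pos 1).ne'
    field_simp
    nlinarith [h3]
  rw [e] at h2
  have h4 : ∀ᶠ n : ℕ in atTop, 3 / 4 * Real.exp (4 / 3) - Real.exp 1 / 3 - ε <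
      Real.exp (4 / 3) / (4 / 3) * (1 - 4 / 9 * Real.exp (2 / 3) / (1 + 1 / (n : ℝ)) ^ n) :=
    h2.eventually (lt_mem_nhds (by linarith))
  obtain ⟨n, hn1, hn2⟩ := (h4.and (eventually_ge_atTop 1)).exists
  exact ⟨n, hn2, hn1⟩

/-- The second conjunct of S0423, verbatim. -/
theorem part2 :
    ∀ ε : ℝ, 0 < ε → ∃ (N : ℕ) (a : Fin N → ℝ), 1 ≤ N ∧ ∑ i, a i = 0 ∧
      3 / 4 * Real.exp (4 / 3) - Real.exp 1 / 3 - ε <
        Real.exp (4 / 3) / (4 / 3) *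
          ∫ x in Set.pi Set.univ (fun _ : Fin N => Set.Ioi (0 : ℝ)),
            Crest.AlgGeometry.truncExpWeight (4 / 3 + ∑ i, a i * x i) * Real.exp (-∑ i, x i) := by
  intro ε hε
  obtain ⟨n, hn, hlt⟩ := part2_limit ε hε
  refine ⟨n + 1, Fin.cons 2 (fun _ => -(2 / (n : ℝ))), by omega, sum_cons n hn, ?_⟩
  have h := part2_bound n hn
  unfold Jop at h
  have hpos : 0 < Real.exp (4 / 3) / (4 / 3) := by positivity
  exact hlt.trans_le (mul_le_mul_of_nonneg_left h hpos.le)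

end Crest.Agent.S0423lib
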