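import Crest.Agent.S0423_aux.Op

/-!
Moments of the exponential law, and the class `Adm` of admissible functions
(monotone, nonnegative, 1-Lipschitz to the right, four-point log-concave), closed under `T a`.
-/

set_option autoImplicit false

namespace Crest.Agent.S0423aux

open MeasureTheory Set

theorem integrable_μe_iff (f : ℝ → ℝ) :
    Integrable f μe ↔ IntegrableOn (fun t => f t * Real.exp (-t)) (Ioi (0:ℝ)) := by
  unfold μe
  rw [integrable_withDensity_iff (by fun_prop)
    (Filter.Eventually.of_forall fun t => ENNReal.ofReal_lt_top)]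
  unfold IntegrableOn
  apply integrable_congr
  filter_upwards with t
  rw [ENNReal.toReal_ofReal (Real.exp_pos _).le]

theorem integrable_pow_μe (n : ℕ) : Integrable (fun t : ℝ => t ^ n) μe := by
  rw [integrable_μe_iff]
  have h := Real.GammaIntegral_convergent (s := (n:ℝ) + 1) (by positivity)
  refine h.congr_fun ?_ measurableSet_Ioi
  intro t _
  simp only [add_sub_cancel_right, Real.rpow_natCast]
  ring

theorem integrable_id_μe : Integrable (fun t : ℝ => t) μe := by
  simpa using integrable_pow_μe 1

theorem integrable_abs_μe : Integrable (fun t : ℝ => |t|) μe := integrable_id_μe.abs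

theorem integral_id_μe : ∫ t, t ∂μe = 1 := by
  rw [integral_μe]
  have h := Real.integral_rpow_mul_exp_neg_mul_Ioi (a := 2) (r := 1) (by norm_num) (by norm_num)
  rw [Real.Gamma_two] at h
  simp only [one_mul, div_one, Real.one_rpow, mul_one] at h
  rw [← h]
  apply setIntegral_congr_fun measurableSet_Ioi
  intro t _
  norm_num

/-- exponential moments -/
theorem integrable_exp_μe {k : ℝ} (hk : 0 ≤ k) : Integrable (fun x : ℝ => Real.exp (-(k * x))) μe := by
  refine Integrable.mono' (integrable_const (1:ℝ)) (by fun_prop) ?_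
  filter_upwards [ae_pos_μe] with x hx
  rw [Real.norm_eq_abs, abs_of_pos (Real.exp_pos _)]
  exact Real.exp_le_one_iff.mpr (by nlinarith)

theorem integrable_mul_exp_μe {k : ℝ} (hk : 0 ≤ k) :
    Integrable (fun x : ℝ => x * Real.exp (-(k * x))) μe := by
  refine Integrable.mono' integrable_abs_μe (by fun_prop) ?_
  filter_upwards [ae_pos_μe] with x hx
  rw [Real.norm_eq_abs, abs_mul, abs_of_pos (Real.exp_pos _)]
  have : Real.exp (-(k * x)) ≤ 1 := Real.exp_le_one_iff.mpr (by nlinarith)
  nlinarith [abs_nonneg x]

theorem integral_exp_μe {k : ℝ} (hk : 0 ≤ k) : ∫ x, Real.exp (-(k * x)) ∂μe = 1 / (1 + k) := by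
  rw [integral_μe]
  have h := Real.integral_rpow_mul_exp_neg_mul_Ioi (a := 1) (r := 1 + k) (by norm_num) (by linarith)
  rw [Real.Gamma_one] at h
  simp only [sub_self, Real.rpow_zero, one_mul, Real.rpow_one, mul_one] at h
  rw [← h]
  apply setIntegral_congr_fun measurableSet_Ioi
  intro t _
  simp only
  rw [← Real.exp_add]
  congr 1
  ring

theorem integral_mul_exp_μe {k : ℝ} (hk : 0 ≤ k) :
    ∫ x, x * Real.exp (-(k * x)) ∂μe = 1 / (1 + k) ^ 2 := by
  rw [integral_μe]
  have h := Real.integral_rpow_mul_exp_neg_mul_Ioi (a := 2) (r := 1 + k) (by norm_num) (by linarith)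
  rw [Real.Gamma_two] at h
  have e : ((1:ℝ) / (1 + k)) ^ (2:ℝ) * 1 = 1 / (1 + k) ^ 2 := by
    rw [mul_one, show (2:ℝ) = ((2:ℕ):ℝ) by norm_num, Real.rpow_natCast, div_pow, one_pow]
  rw [e] at h
  rw [← h]
  apply setIntegral_congr_fun measurableSet_Ioi
  intro t _
  simp only
  rw [mul_assoc, ← Real.exp_add]
  norm_num
  left
  ring

/-- Admissible functions. -/
structure Adm (f : ℝ → ℝ) : Prop where
  mono : Monotone f
  nonneg : ∀ y, 0 ≤ f y
  lip : ∀ y d, 0 ≤ d → f (y + d) ≤ f y + d
  lc : LC f

/-- positive part -/
noncomputable def pos (v : ℝ) : ℝ := max v 0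

theorem Adm_pos : Adm pos where
  mono := fun x y h => max_le_max h le_rfl
  nonneg := fun y => le_max_right _ _
  lip := by
    intro y d hd
    unfold pos
    apply max_le
    · linarith [le_max_left y 0]
    · linarith [le_max_right y 0]
  lc := by
    intro u v d huv hd
    unfold pos
    rcases le_or_gt u 0 with hu | hu
    · rw [max_eq_right hu, zero_mul]
      exact mul_nonneg (le_max_right _ _) (le_max_right _ _)
    · rw [max_eq_left hu.le, max_eq_left (by linarith), max_eq_left (by linarith),
        max_eq_left (by linarith)]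
      nlinarith

namespace Adm

variable {f : ℝ → ℝ}

theorem le_growth (hf : Adm f) (z : ℝ) : f z ≤ f 0 + |z| := by
  rcases le_or_gt 0 z with hz | hz
  · have := hf.lip 0 z hz
    rw [zero_add] at this
    rwa [abs_of_nonneg hz]
  · have := hf.mono hz.le
    linarith [abs_nonneg z]

theorem integrable (hf : Adm f) (a y : ℝ) : Integrable (fun t => f (y + a * t)) μe := by
  have hdom : Integrable (fun t : ℝ => f 0 + |y| + |a| * |t|) μe :=
    (integrable_const _).add (integrable_abs_μe.const_mul _)
  refine Integrable.mono' hdom (hf.mono.measurable.comp (by fun_prop)).aestronglyMeasurable ?_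
  filter_upwards with t
  rw [Real.norm_eq_abs, abs_of_nonneg (hf.nonneg _)]
  have h1 := hf.le_growth (y + a * t)
  have h2 : |y + a * t| ≤ |y| + |a| * |t| := by
    rw [← abs_mul]; exact abs_add_le _ _
  linarith

theorem T (hf : Adm f) (a : ℝ) : Adm (T a f) where
  mono := by
    intro x y hxy
    exact integral_mono (hf.integrable a x) (hf.integrable a y) (fun t => hf.mono (by linarith))
  nonneg := fun y => integral_nonneg (fun _ => hf.nonneg _)
  lip := by
    intro y d hd
    have h1 : Crest.Agent.S0423aux.T a f (y + d) ≤ ∫ t, (f (y + a * t) + d) ∂μe := by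
      apply integral_mono (hf.integrable a (y + d)) ((hf.integrable a y).add (integrable_const _))
      intro t
      have := hf.lip (y + a * t) d hd
      have e : y + a * t + d = y + d + a * t := by ring
      rw [e] at this
      exact this
    rw [integral_add (hf.integrable a y) (integrable_const _)] at h1
    simpa [Crest.Agent.S0423aux.T] using h1
  lc := LC_T (hf.integrable a) hf.lc

theorem T_lower (hf : Adm f) (a : ℝ) {m : ℝ} (hm : ∀ v, v + m ≤ f v) (v : ℝ) :
    v + (m + a) ≤ Crest.Agent.S0423aux.T a f v := by
  have h1 : ∫ t, (v + m + a * t) ∂μe ≤ Crest.Agent.S0423aux.T a f v := by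
    apply integral_mono ((integrable_const _).add (integrable_id_μe.const_mul _)) (hf.integrable a v)
    intro t
    have := hm (v + a * t)
    simp only [Pi.add_apply]
    linarith
  rw [integral_add (integrable_const _) (integrable_id_μe.const_mul _), integral_const_mul,
    integral_id_μe] at h1
  simp at h1
  linarith

end Adm

end Crest.Agent.S0423aux
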