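import Mathlib

/-!
Auxiliary one-dimensional theory for S0423: the four-point form of log-concavity,
the chord lemma (rotation trick).
-/

set_option autoImplicit false

namespace Crest.Agent.S0423aux

open MeasureTheory Set

/-- Four-point (PF₂) form of log-concavity. -/
def LC (f : ℝ → ℝ) : Prop :=
  ∀ u v d : ℝ, u ≤ v → 0 ≤ d → f u * f (v + d) ≤ f (u + d) * f v

theorem LC.mul {f g : ℝ → ℝ} (hf : LC f) (hg : LC g) (hf0 : ∀ y, 0 ≤ f y) (hg0 : ∀ y, 0 ≤ g y) :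
    LC (fun y => f y * g y) := by
  intro u v d huv hd
  have h1 := hf u v d huv hd
  have h2 := hg u v d huv hd
  calc f u * g u * (f (v + d) * g (v + d)) = (f u * f (v + d)) * (g u * g (v + d)) := by ring
    _ ≤ (f (u + d) * f v) * (g (u + d) * g v) :=
        mul_le_mul h1 h2 (mul_nonneg (hg0 _) (hg0 _)) (mul_nonneg (hf0 _) (hf0 _))
    _ = f (u + d) * g (u + d) * (f v * g v) := by ring

theorem LC_exp (σ β : ℝ) : LC (fun y => Real.exp (σ * y + β)) := by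
  intro u v d _ _
  simp only [← Real.exp_add]
  apply le_of_eq
  congr 1
  ring

/-- The chord lemma, proved by the rotation trick: a bounded nonnegative PF₂ function that is
`≥ 1` at `y₁` and at `y₃` is `≥ 1` in between. -/
theorem LC.chord {r : ℝ → ℝ} (hLC : LC r) (hnn : ∀ y, 0 ≤ r y) {y₁ y₂ y₃ Cb : ℝ}
    (h12 : y₁ < y₂) (h23 : y₂ < y₃) (hb : ∀ y ∈ Icc y₁ y₃, r y ≤ Cb)
    (h1 : 1 ≤ r y₁) (h3 : 1 ≤ r y₃) : 1 ≤ r y₂ := by
  by_contra hcon
  rw [not_le] at hcon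
  set θ := r y₂ with hθ
  have hθ0 : 0 ≤ θ := hnn _
  -- one step of the rotation
  have step : ∀ x ∈ Icc y₁ y₃, ∃ x' ∈ Icc y₁ y₃, r x ≤ θ * r x' := by
    intro x hx
    by_cases hxy : x ≤ y₂
    · refine ⟨x + (y₃ - y₂), ⟨by linarith [hx.1], by linarith⟩, ?_⟩
      have h := hLC x y₂ (y₃ - y₂) hxy (by linarith)
      have e : y₂ + (y₃ - y₂) = y₃ := by ring
      rw [e] at h
      calc r x = r x * 1 := by ring
        _ ≤ r x * r y₃ := mul_le_mul_of_nonneg_left h3 (hnn _)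
        _ ≤ r (x + (y₃ - y₂)) * r y₂ := h
        _ = θ * r (x + (y₃ - y₂)) := by rw [hθ]; ring
    · rw [not_le] at hxy
      refine ⟨x - (y₂ - y₁), ⟨by linarith, by linarith [hx.2]⟩, ?_⟩
      have h := hLC y₁ (x - (y₂ - y₁)) (y₂ - y₁) (by linarith) (by linarith)
      have e1 : x - (y₂ - y₁) + (y₂ - y₁) = x := by ring
      have e2 : y₁ + (y₂ - y₁) = y₂ := by ring
      rw [e1, e2] at h
      calc r x = 1 * r x := by ring
        _ ≤ r y₁ * r x := mul_le_mul_of_nonneg_right h1 (hnn _)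
        _ ≤ r y₂ * r (x - (y₂ - y₁)) := h
  have iter : ∀ n : ℕ, ∃ x ∈ Icc y₁ y₃, 1 ≤ θ ^ n * r x := by
    intro n
    induction n with
    | zero => exact ⟨y₁, ⟨le_refl _, by linarith⟩, by simpa using h1⟩
    | succ n ih =>
      obtain ⟨x, hx, hx1⟩ := ih
      obtain ⟨x', hx', hxx'⟩ := step x hx
      refine ⟨x', hx', ?_⟩
      calc 1 ≤ θ ^ n * r x := hx1
        _ ≤ θ ^ n * (θ * r x') := mul_le_mul_of_nonneg_left hxx' (pow_nonneg hθ0 _)
        _ = θ ^ (n + 1) * r x' := by ring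
  have hCb : 0 < Cb := lt_of_lt_of_le one_pos (h1.trans (hb y₁ ⟨le_refl _, by linarith⟩))
  obtain ⟨n, hn⟩ := exists_pow_lt_of_lt_one (show 0 < 1 / Cb by positivity) hcon
  obtain ⟨x, hx, hx1⟩ := iter n
  have : θ ^ n * r x < 1 := by
    calc θ ^ n * r x ≤ θ ^ n * Cb := mul_le_mul_of_nonneg_left (hb x hx) (pow_nonneg hθ0 _)
      _ < 1 / Cb * Cb := mul_lt_mul_of_pos_right hn hCb
      _ = 1 := by field_simp
  linarith

end Crest.Agent.S0423aux
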