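import Mathlib
import Crest.Prelude.Def_TruncExpWeight

/-!
Definitions for the proof of S0423 (refined Gruenbaum inequality for sums of exponentials).
-/

set_option autoImplicit false

namespace Crest.Agent.S0423lib

open MeasureTheory Set

/-- Heaviside function. -/
noncomputable def Hv (r : ℝ) : ℝ := if 0 ≤ r then 1 else 0

/-- Averaging against one exponential variable with coefficient `c`. -/
noncomputable def Eop (c : ℝ) (φ : ℝ → ℝ) (y : ℝ) : ℝ :=
  ∫ x in Ioi (0 : ℝ), φ (y + c * x) * Real.exp (-x)

/-- Averaging against `n` exponential variables with coefficients `a`. -/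
noncomputable def Jop {n : ℕ} (a : Fin n → ℝ) (φ : ℝ → ℝ) (s : ℝ) : ℝ :=
  ∫ x in Set.pi Set.univ (fun _ : Fin n => Set.Ioi (0 : ℝ)),
    φ (s + ∑ i, a i * x i) * Real.exp (-∑ i, x i)

/-- Averaging against minus a Gamma(2) variable. -/
noncomputable def Wop (φ : ℝ → ℝ) (y : ℝ) : ℝ :=
  ∫ s in Ioi (0 : ℝ), φ (y - s) * (s * Real.exp (-s))

/-- Measurable functions with values in `[0,1]`. -/
structure BM (φ : ℝ → ℝ) : Prop where
  meas : Measurable φ
  nonneg : ∀ y, 0 ≤ φ y
  le_one : ∀ y, φ y ≤ 1

/-- The class of positive continuous log-concave "distribution functions" with a first moment. -/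
structure KC (F : ℝ → ℝ) : Prop where
  cont : Continuous F
  pos : ∀ r, 0 < F r
  le_one : ∀ r, F r ≤ 1
  conc : ConcaveOn ℝ Set.univ (fun r => Real.log (F r))
  integ : Integrable (fun r => F r - Hv r)

/-- minus the mean of the distribution with distribution function `F`. -/
noncomputable def Mn (F : ℝ → ℝ) : ℝ := ∫ r, (F r - Hv r)

/-- distribution function of `t - t X`, `X` exponential. -/
noncomputable def Fs (t r : ℝ) : ℝ := min 1 (Real.exp (r / t - 1))

/-- the density of `4/3 - Gamma(2)`. -/
noncomputable def wf (r : ℝ) : ℝ := max (4 / 3 - r) 0 * Real.exp (r - 4 / 3)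

end Crest.Agent.S0423lib
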