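import Crest.Agent.S0423_aux.Defs

/-! T1. Basic facts on the one-variable operator `Eop`. -/

set_option autoImplicit false

namespace Crest.Agent.S0423lib

open MeasureTheory Set

theorem BM_Hv : BM Hv := by
  refine ⟨?_, fun y => ?_, fun y => ?_⟩
  · show Measurable (fun r : ℝ => if 0 ≤ r then (1 : ℝ) else 0)
    exact Measurable.ite measurableSet_Ici measurable_const measurable_const
  · unfold Hv; split_ifs <;> norm_num
  · unfold Hv; split_ifs <;> norm_num

theorem BM.one_sub {φ : ℝ → ℝ} (h : BM φ) : BM (fun y => 1 - φ y) :=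
  ⟨measurable_const.sub h.meas, fun y => by linarith [h.le_one y], fun y => by linarith [h.nonneg y]⟩

theorem KC.bm {F : ℝ → ℝ} (h : KC F) : BM F :=
  ⟨h.cont.measurable, fun r => (h.pos r).le, h.le_one⟩

/-- E1 -/
theorem integrableOn_Eop {φ : ℝ → ℝ} (hφ : BM φ) (c y : ℝ) :
    IntegrableOn (fun x => φ (y + c * x) * Real.exp (-x)) (Ioi 0) := by
  refine (integrableOn_exp_neg_Ioi 0).bdd_mul (c := 1) ?_ ?_
  · apply Measurable.aestronglyMeasurable
    apply hφ.meas.comp
    fun_prop
  · refine Filter.Eventually.of_forall fun x => ?_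
    rw [Real.norm_eq_abs, abs_of_nonneg (hφ.nonneg _)]
    exact hφ.le_one _

/-- E2 -/
theorem BM_Eop {φ : ℝ → ℝ} (hφ : BM φ) (c : ℝ) : BM (Eop c φ) := by
  refine ⟨?_, fun y => ?_, fun y => ?_⟩
  · have h : StronglyMeasurable (Function.uncurry fun (y x : ℝ) => φ (y + c * x) * Real.exp (-x)) := by
      apply Measurable.stronglyMeasurable
      apply Measurable.mul
      · apply hφ.meas.comp
        fun_prop
      · fun_prop
    exact (h.integral_prod_right (ν := volume.restrict (Ioi (0 : ℝ)))).measurable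
  · apply setIntegral_nonneg measurableSet_Ioi
    intro x _
    exact mul_nonneg (hφ.nonneg _) (Real.exp_pos _).le
  · unfold Eop
    rw [← integral_exp_neg_Ioi_zero]
    apply setIntegral_mono_on (integrableOn_Eop hφ c y) (integrableOn_exp_neg_Ioi 0) measurableSet_Ioi
    intro x _
    have := hφ.le_one (y + c * x)
    have h2 := Real.exp_pos (-x)
    nlinarith

/-- E3 -/
theorem Eop_zero (φ : ℝ → ℝ) : Eop 0 φ = φ := by
  funext y
  unfold Eop
  simp only [zero_mul, add_zero]
  rw [integral_const_mul, integral_exp_neg_Ioi_zero, mul_one]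

/-- E4 -/
theorem Eop_mono {φ ψ : ℝ → ℝ} (hφ : BM φ) (hψ : BM ψ) (h : ∀ y, φ y ≤ ψ y) (c y : ℝ) :
    Eop c φ y ≤ Eop c ψ y := by
  apply setIntegral_mono_on (integrableOn_Eop hφ c y) (integrableOn_Eop hψ c y) measurableSet_Ioi
  intro x _
  exact mul_le_mul_of_nonneg_right (h _) (Real.exp_pos _).le

/-- E5 -/
theorem Eop_Hv_pos {c : ℝ} (hc : 0 < c) (r : ℝ) : Eop c Hv r = min 1 (Real.exp (r / c)) := by
  unfold Eop
  by_cases hr : 0 ≤ r
  · have h1 : (1 : ℝ) ≤ Real.exp (r / c) := Real.one_le_exp (by positivity)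
    rw [min_eq_left h1, ← integral_exp_neg_Ioi_zero]
    apply setIntegral_congr_fun measurableSet_Ioi
    intro x hx
    have hx' : (0 : ℝ) < x := hx
    have : 0 ≤ r + c * x := by positivity
    simp only [Hv, if_pos this, one_mul]
  · push Not at hr
    have h1 : Real.exp (r / c) ≤ 1 := by
      rw [Real.exp_le_one_iff]
      exact (div_neg_of_neg_of_pos hr hc).le
    rw [min_eq_right h1]
    have hb : 0 < -r / c := div_pos (by linarith) hc
    have hfun : (fun x => Hv (r + c * x) * Real.exp (-x))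
        = (Ici (-r / c)).indicator (fun x => Real.exp (-x)) := by
      funext x
      by_cases hx : -r / c ≤ x
      · have : 0 ≤ r + c * x := by
          rw [div_le_iff₀ hc] at hx; nlinarith
        rw [indicator_of_mem (show x ∈ Ici (-r / c) from hx)]
        simp only [Hv, if_pos this, one_mul]
      · have hx2 : x < -r / c := not_le.mp hx
        have : ¬ 0 ≤ r + c * x := by
          rw [lt_div_iff₀ hc] at hx2; intro h; nlinarith
        rw [indicator_of_notMem (show x ∉ Ici (-r / c) from hx)]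
        simp only [Hv, if_neg this, zero_mul]
    rw [hfun, setIntegral_indicator measurableSet_Ici]
    have : Ioi (0 : ℝ) ∩ Ici (-r / c) = Ici (-r / c) := by
      apply inter_eq_right.mpr
      intro x hx
      exact lt_of_lt_of_le hb hx
    rw [this, integral_Ici_eq_integral_Ioi, integral_exp_neg_Ioi]
    congr 1
    ring

/-- E6 -/
theorem Eop_one_sub {φ : ℝ → ℝ} (hφ : BM φ) (c y : ℝ) :
    Eop c (fun z => 1 - φ z) y = 1 - Eop c φ y := by
  unfold Eop
  have h1 : (1 : ℝ) = ∫ x in Ioi (0 : ℝ), Real.exp (-x) := integral_exp_neg_Ioi_zero.symm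
  conv_rhs => rw [h1]
  rw [← integral_sub (integrableOn_exp_neg_Ioi 0) (integrableOn_Eop hφ c y)]
  congr 1
  funext x
  ring

/-- E7: bound by an exponential is propagated (used for the near-extremal family). -/
theorem Eop_le_exp {φ : ℝ → ℝ} (hφ : BM φ) {C κ δ : ℝ} (_hC : 0 ≤ C) (hκ : 0 < κ) (hδ : 0 ≤ δ)
    (h : ∀ y, φ y ≤ C * Real.exp (κ * y)) (y : ℝ) :
    Eop (-δ) φ y ≤ C / (1 + κ * δ) * Real.exp (κ * y) := by
  have hpos : 0 < 1 + κ * δ := by positivity
  have hneg : -(1 + κ * δ) < 0 := by linarith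
  have hI := integrableOn_exp_mul_Ioi hneg 0
  have hval := integral_exp_mul_Ioi hneg 0
  have hint2 : IntegrableOn (fun x => C * Real.exp (κ * y) * Real.exp (-(1 + κ * δ) * x)) (Ioi 0) :=
    hI.const_mul _
  calc Eop (-δ) φ y ≤ ∫ x in Ioi (0 : ℝ), C * Real.exp (κ * y) * Real.exp (-(1 + κ * δ) * x) := by
        apply setIntegral_mono_on (integrableOn_Eop hφ (-δ) y) hint2 measurableSet_Ioi
        intro x _
        calc φ (y + -δ * x) * Real.exp (-x) ≤ C * Real.exp (κ * (y + -δ * x)) * Real.exp (-x) :=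
              mul_le_mul_of_nonneg_right (h _) (Real.exp_pos _).le
          _ = C * Real.exp (κ * y) * Real.exp (-(1 + κ * δ) * x) := by
              rw [mul_assoc, mul_assoc, ← Real.exp_add, ← Real.exp_add]
              congr 2
              ring
    _ = C / (1 + κ * δ) * Real.exp (κ * y) := by
        rw [integral_const_mul, hval]
        simp only [mul_zero, Real.exp_zero]
        field_simp

/-- Gamma(2) integral -/
theorem integral_id_mul_exp {b : ℝ} (hb : 0 < b) :
    ∫ s in Ioi (0 : ℝ), s * Real.exp (-(b * s)) = 1 / b ^ 2 := by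
  have h := Real.integral_rpow_mul_exp_neg_mul_Ioi (a := 2) (r := b) (by norm_num) hb
  rw [Real.Gamma_two, mul_one] at h
  have e : (2 : ℝ) - 1 = 1 := by norm_num
  simp only [e, Real.rpow_one] at h
  rw [h, Real.rpow_two, one_div, one_div, inv_pow]

theorem integrableOn_id_mul_exp {b : ℝ} (hb : 0 < b) :
    IntegrableOn (fun s : ℝ => s * Real.exp (-(b * s))) (Ioi 0) := by
  by_contra h
  have h1 := integral_id_mul_exp hb
  rw [integral_undef h] at h1
  have : 0 < 1 / b ^ 2 := by positivity
  linarith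

theorem integral_id_mul_exp_one : ∫ s in Ioi (0 : ℝ), s * Real.exp (-s) = 1 := by
  have := integral_id_mul_exp (b := 1) one_pos
  simpa using this

theorem integrableOn_id_mul_exp_one : IntegrableOn (fun s : ℝ => s * Real.exp (-s)) (Ioi 0) := by
  have := integrableOn_id_mul_exp (b := 1) one_pos
  simpa using this

end Crest.Agent.S0423lib
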