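import Crest.Agent.S0423_aux.Psi

/-!
Chord comparison with exponentials for admissible functions and the sharp lower bound
`Psi A (4/3) ≥ (4/9) e^{-1/3}` when `v ≤ A v`.
-/

set_option autoImplicit false

namespace Crest.Agent.S0423aux

open MeasureTheory Set

namespace Adm

variable {A : ℝ → ℝ}

theorem chord_mid (hA : Adm A) (σ β : ℝ) {y₁ y₂ y₃ : ℝ} (h12 : y₁ < y₂) (h23 : y₂ < y₃)
    (h1 : Real.exp (σ * y₁ + β) ≤ A y₁) (h3 : Real.exp (σ * y₃ + β) ≤ A y₃) :
    Real.exp (σ * y₂ + β) ≤ A y₂ := by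
  set r : ℝ → ℝ := fun y => A y * Real.exp (-σ * y + -β) with hr
  have hLC : LC r := hA.lc.mul (LC_exp (-σ) (-β)) hA.nonneg (fun _ => (Real.exp_pos _).le)
  have hnn : ∀ y, 0 ≤ r y := fun y => mul_nonneg (hA.nonneg _) (Real.exp_pos _).le
  have hinv : ∀ y, Real.exp (σ * y + β) * Real.exp (-σ * y + -β) = 1 := by
    intro y
    rw [← Real.exp_add]
    have : σ * y + β + (-σ * y + -β) = 0 := by ring
    rw [this, Real.exp_zero]
  have hge : ∀ y, Real.exp (σ * y + β) ≤ A y → 1 ≤ r y := by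
    intro y hy
    rw [← hinv y]
    exact mul_le_mul_of_nonneg_right hy (Real.exp_pos _).le
  obtain ⟨Ce, hCe⟩ := (isCompact_Icc (a := y₁) (b := y₃)).exists_bound_of_continuousOn
    (f := fun y => Real.exp (-σ * y + -β)) (by fun_prop)
  have hb : ∀ y ∈ Icc y₁ y₃, r y ≤ A y₃ * Ce := by
    intro y hy
    have h1 := hCe y hy
    rw [Real.norm_eq_abs, abs_of_pos (Real.exp_pos _)] at h1
    exact mul_le_mul (hA.mono hy.2) h1 (Real.exp_pos _).le (hA.nonneg _)
  have := hLC.chord hnn h12 h23 hb (hge _ h1) (hge _ h3)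
  calc Real.exp (σ * y₂ + β) = Real.exp (σ * y₂ + β) * 1 := by ring
    _ ≤ Real.exp (σ * y₂ + β) * r y₂ := mul_le_mul_of_nonneg_left this (Real.exp_pos _).le
    _ = A y₂ * (Real.exp (σ * y₂ + β) * Real.exp (-σ * y₂ + -β)) := by rw [hr]; ring
    _ = A y₂ := by rw [hinv]; ring

theorem chord_right (hA : Adm A) (σ β : ℝ) {y₁ y₂ y₃ : ℝ} (h12 : y₁ < y₂) (h23 : y₂ < y₃)
    (h1 : Real.exp (σ * y₁ + β) ≤ A y₁) (h2 : A y₂ ≤ Real.exp (σ * y₂ + β)) :
    A y₃ ≤ Real.exp (σ * y₃ + β) := by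
  by_contra hcon
  rw [not_le] at hcon
  have hpos : 0 < A y₃ := lt_trans (Real.exp_pos _) hcon
  have hlog : σ * y₃ + β < Real.log (A y₃) := (Real.lt_log_iff_exp_lt hpos).mpr hcon
  set η := (Real.log (A y₃) - (σ * y₃ + β)) / (y₃ - y₁) with hη
  have h13 : 0 < y₃ - y₁ := by linarith
  have hηpos : 0 < η := div_pos (by linarith) h13
  have hη3 : η * (y₃ - y₁) = Real.log (A y₃) - (σ * y₃ + β) := by
    rw [hη]; field_simp
  have e1 : (σ + η) * y₁ + (β - η * y₁) = σ * y₁ + β := by ring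
  have e3 : (σ + η) * y₃ + (β - η * y₁) = Real.log (A y₃) := by
    have : (σ + η) * y₃ + (β - η * y₁) = σ * y₃ + β + η * (y₃ - y₁) := by ring
    rw [this, hη3]; ring
  have := hA.chord_mid (σ + η) (β - η * y₁) h12 h23 (by rw [e1]; exact h1)
    (by rw [e3, Real.exp_log hpos])
  have h4 := Real.exp_le_exp.mp (this.trans h2)
  have : η * (y₂ - y₁) ≤ 0 := by nlinarith
  have : 0 < η * (y₂ - y₁) := mul_pos hηpos (by linarith)
  linarith

theorem chord_left (hA : Adm A) (σ β : ℝ) {y₁ y₂ y₃ : ℝ} (h12 : y₁ < y₂) (h23 : y₂ < y₃)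
    (h2 : A y₂ ≤ Real.exp (σ * y₂ + β)) (h3 : Real.exp (σ * y₃ + β) ≤ A y₃) :
    A y₁ ≤ Real.exp (σ * y₁ + β) := by
  by_contra hcon
  rw [not_le] at hcon
  have hpos : 0 < A y₁ := lt_trans (Real.exp_pos _) hcon
  have hlog : σ * y₁ + β < Real.log (A y₁) := (Real.lt_log_iff_exp_lt hpos).mpr hcon
  set η := (Real.log (A y₁) - (σ * y₁ + β)) / (y₃ - y₁) with hη
  have h13 : 0 < y₃ - y₁ := by linarith
  have hηpos : 0 < η := div_pos (by linarith) h13
  have hη3 : η * (y₃ - y₁) = Real.log (A y₁) - (σ * y₁ + β) := by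
    rw [hη]; field_simp
  have e3 : (σ - η) * y₃ + (β + η * y₃) = σ * y₃ + β := by ring
  have e1 : (σ - η) * y₁ + (β + η * y₃) = Real.log (A y₁) := by
    have : (σ - η) * y₁ + (β + η * y₃) = σ * y₁ + β + η * (y₃ - y₁) := by ring
    rw [this, hη3]; ring
  have := hA.chord_mid (σ - η) (β + η * y₃) h12 h23 (by rw [e1, Real.exp_log hpos])
    (by rw [e3]; exact h3)
  have h4 := Real.exp_le_exp.mp (this.trans h2)
  have : η * (y₃ - y₂) ≤ 0 := by nlinarith
  have : 0 < η * (y₃ - y₂) := mul_pos hηpos (by linarith)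
  linarith

end Adm

/-- numeric fact, first regime -/
theorem numeric_small {k : ℝ} (hk : 0 ≤ k) :
    4 / 9 * Real.exp (-(1 / 3)) ≤ Real.exp (4 / 3 * k - 1) / (1 + k) ^ 2 := by
  have h1 : (2 + 2 * k) / 3 ≤ Real.exp ((2 * k - 1) / 3) := by
    have := Real.add_one_le_exp ((2 * k - 1) / 3)
    linarith
  have h2 : Real.exp (4 / 3 * k - 1) = Real.exp (-(1 / 3)) * (Real.exp ((2 * k - 1) / 3)) ^ 2 := by
    rw [sq, ← Real.exp_add, ← Real.exp_add]
    congr 1
    ring
  rw [h2, le_div_iff₀ (by positivity)]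
  have h3 : ((2 + 2 * k) / 3) ^ 2 ≤ (Real.exp ((2 * k - 1) / 3)) ^ 2 :=
    pow_le_pow_left₀ (by positivity) h1 2
  have h4 := Real.exp_pos (-(1 / 3))
  nlinarith

/-- numeric fact, second regime -/
theorem numeric_large : 4 / 9 * Real.exp (-(1 / 3)) ≤ 8 / 25 := by
  have h1 : (25:ℝ) / 18 ≤ Real.exp (1 / 3) := by
    have := Real.quadratic_le_exp_of_nonneg (x := 1 / 3) (by norm_num)
    linarith
  have h2 : Real.exp (-(1 / 3)) * Real.exp (1 / 3) = 1 := by
    rw [← Real.exp_add]; simp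
  have h3 := Real.exp_pos (-(1 / 3))
  nlinarith

theorem log_four_le : Real.log 4 ≤ 3 / 2 := by
  rw [Real.log_le_iff_le_exp (by norm_num)]
  have h1 : (65:ℝ) / 32 ≤ Real.exp (3 / 4) := by
    have := Real.quadratic_le_exp_of_nonneg (x := 3 / 4) (by norm_num)
    linarith
  have h2 : Real.exp (3 / 2) = Real.exp (3 / 4) * Real.exp (3 / 4) := by
    rw [← Real.exp_add]; norm_num
  rw [h2]
  nlinarith

/-- The sharp one-dimensional inequality. -/
theorem Adm.Psi_lower {A : ℝ → ℝ} (hA : Adm A) (hid : ∀ v, v ≤ A v) :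
    4 / 9 * Real.exp (-(1 / 3)) ≤ Psi A (4 / 3) := by
  set a1 := A (1 / 3) with ha1
  set a0 := A (4 / 3) with ha0
  have h_a1 : 1 / 3 ≤ a1 := hid _
  have h_a0 : 4 / 3 ≤ a0 := hid _
  have h_a1pos : 0 < a1 := by linarith
  have h_a0pos : 0 < a0 := by linarith
  have h10 : a1 ≤ a0 := hA.mono (by norm_num)
  have h01 : a0 ≤ a1 + 1 := by
    have := hA.lip (1 / 3) 1 (by norm_num)
    have e : (1:ℝ) / 3 + 1 = 4 / 3 := by norm_num
    rwa [e] at this
  set k := Real.log (a0 / a1) with hk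
  have hk0 : 0 ≤ k := Real.log_nonneg (by rw [le_div_iff₀ h_a1pos]; linarith)
  set β := Real.log a1 - k / 3 with hβ
  have hB1 : Real.exp (k * (1 / 3) + β) = a1 := by
    have : k * (1 / 3) + β = Real.log a1 := by rw [hβ]; ring
    rw [this, Real.exp_log h_a1pos]
  have hB0 : Real.exp (k * (4 / 3) + β) = a0 := by
    have : k * (4 / 3) + β = Real.log a1 + k := by rw [hβ]; ring
    rw [this, Real.exp_add, Real.exp_log h_a1pos, hk, Real.exp_log (by positivity)]
    field_simp
  have hBx : ∀ x, Real.exp (k * (4 / 3 - x) + β) = a0 * Real.exp (-(k * x)) := by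
    intro x
    rw [← hB0, ← Real.exp_add]
    congr 1
    ring
  -- comparison of the integrals
  have hcmp : ∫ x, (1 - x) * (a0 * Real.exp (-(k * x))) ∂μe ≤ Psi A (4 / 3) := by
    unfold Psi
    apply integral_mono_ae
    · have h := ((integrable_exp_μe hk0).sub (integrable_mul_exp_μe hk0)).const_mul a0
      refine h.congr ?_
      filter_upwards with x
      simp only [Pi.sub_apply]
      ring
    · exact hA.integrable_Psi _
    · filter_upwards [ae_pos_μe] with x hx
      rw [← hBx x]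
      rcases lt_trichotomy x 1 with h | h | h
      · apply mul_le_mul_of_nonneg_left _ (by linarith)
        exact hA.chord_mid k β (y₁ := 1 / 3) (y₂ := 4 / 3 - x) (y₃ := 4 / 3) (by linarith)
          (by linarith) hB1.le hB0.le
      · rw [h]; simp
      · apply mul_le_mul_of_nonpos_left _ (by linarith)
        exact hA.chord_left k β (y₁ := 4 / 3 - x) (y₂ := 1 / 3) (y₃ := 4 / 3) (by linarith)
          (by norm_num) hB1.ge hB0.le
  have hval : ∫ x, (1 - x) * (a0 * Real.exp (-(k * x))) ∂μe = a0 * k / (1 + k) ^ 2 := by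
    have e : (fun x : ℝ => (1 - x) * (a0 * Real.exp (-(k * x))))
        = fun x => a0 * (Real.exp (-(k * x)) - x * Real.exp (-(k * x))) := by
      ext x; ring
    rw [e, integral_const_mul, integral_sub (integrable_exp_μe hk0) (integrable_mul_exp_μe hk0),
      integral_exp_μe hk0, integral_mul_exp_μe hk0]
    have : (1 + k) ≠ 0 := by positivity
    field_simp
    ring
  rw [hval] at hcmp
  refine le_trans ?_ hcmp
  -- numeric part
  rcases lt_or_ge k (3 / 4) with hk34 | hk34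
  · -- `k > 0`
    have hright : ∀ v, 4 / 3 < v → v ≤ a0 * Real.exp (k * (v - 4 / 3)) := by
      intro v hv
      have := hA.chord_right k β (y₁ := 1 / 3) (y₂ := 4 / 3) (y₃ := v) (by norm_num) hv hB1.le hB0.ge
      have e : Real.exp (k * v + β) = a0 * Real.exp (k * (v - 4 / 3)) := by
        rw [← hB0, ← Real.exp_add]; congr 1; ring
      rw [e] at this
      exact (hid v).trans this
    have hkpos : 0 < k := by
      rcases hk0.lt_or_eq with h | h
      · exact h
      · exfalso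
        have := hright (a0 + 1) (by linarith)
        rw [← h] at this
        simp at this
        linarith
    have h1 := hright (1 / k) (by rw [lt_div_iff₀ hkpos]; linarith)
    have e1 : k * (1 / k - 4 / 3) = 1 - 4 / 3 * k := by field_simp
    rw [e1] at h1
    have h2 : Real.exp (4 / 3 * k - 1) ≤ a0 * k := by
      have h3 : Real.exp (4 / 3 * k - 1) * Real.exp (1 - 4 / 3 * k) = 1 := by
        rw [← Real.exp_add]; simp
      have h4 := Real.exp_pos (4 / 3 * k - 1)
      have h5 : 1 ≤ a0 * Real.exp (1 - 4 / 3 * k) * k := by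
        have := mul_le_mul_of_nonneg_right h1 hkpos.le
        rwa [div_mul_cancel₀ _ hkpos.ne'] at this
      calc Real.exp (4 / 3 * k - 1) = Real.exp (4 / 3 * k - 1) * 1 := by ring
        _ ≤ Real.exp (4 / 3 * k - 1) * (a0 * Real.exp (1 - 4 / 3 * k) * k) :=
            mul_le_mul_of_nonneg_left h5 h4.le
        _ = a0 * k * (Real.exp (4 / 3 * k - 1) * Real.exp (1 - 4 / 3 * k)) := by ring
        _ = a0 * k := by rw [h3]; ring
    calc 4 / 9 * Real.exp (-(1 / 3)) ≤ Real.exp (4 / 3 * k - 1) / (1 + k) ^ 2 := numeric_small hk0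
      _ ≤ a0 * k / (1 + k) ^ 2 := by gcongr
  · have hk32 : k ≤ 3 / 2 := by
      refine le_trans ?_ log_four_le
      apply Real.log_le_log (by positivity)
      rw [div_le_iff₀ h_a1pos]
      linarith
    refine numeric_large.trans ?_
    rw [le_div_iff₀ (by positivity)]
    nlinarith

end Crest.Agent.S0423aux
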