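import Crest.Agent.S0423_aux.LC

set_option autoImplicit false

open MeasureTheory Set Real

namespace Crest.Agent.S0423

/-- the exponential averaging operator -/
noncomputable def Ta (a : ℝ) (h : ℝ → ℝ) (u : ℝ) : ℝ :=
  ∫ x in Ioi (0:ℝ), h (u - a * x) * exp (-x)

lemma integrableOn_exp_neg_mul {b : ℝ} (hb : 0 < b) :
    IntegrableOn (fun x : ℝ => exp (-(b * x))) (Ioi 0) := by
  have := integrableOn_exp_mul_Ioi (a := -b) (by linarith) 0
  simpa [neg_mul] using this

lemma integral_exp_neg_mul {b : ℝ} (hb : 0 < b) :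
    ∫ x in Ioi (0:ℝ), exp (-(b * x)) = 1 / b := by
  have := integral_exp_mul_Ioi (a := -b) (by linarith) 0
  simp only [neg_mul] at this
  rw [this]
  simp
  
lemma integral_mul_exp_neg_mul {b : ℝ} (hb : 0 < b) :
    ∫ x in Ioi (0:ℝ), x * exp (-(b * x)) = 1 / b ^ 2 := by
  have := Real.integral_rpow_mul_exp_neg_mul_Ioi (a := 2) (r := b) (by norm_num) hb
  have e : (2:ℝ) - 1 = 1 := by norm_num
  rw [e] at this
  simp only [rpow_one] at this
  rw [this, Real.Gamma_two]
  have : ((1:ℝ) / b) ^ (2:ℝ) = (1 / b) ^ (2:ℕ) := by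
    rw [← rpow_natCast]; norm_num
  rw [this]
  field_simp

lemma integrableOn_mul_exp_neg_mul {b : ℝ} (hb : 0 < b) :
    IntegrableOn (fun x : ℝ => x * exp (-(b * x))) (Ioi 0) := by
  by_contra h
  have h1 := integral_undef h
  rw [integral_mul_exp_neg_mul hb] at h1
  have : 0 < 1 / b ^ 2 := by positivity
  linarith

lemma integrableOn_exp_neg' : IntegrableOn (fun x : ℝ => exp (-x)) (Ioi 0) :=
  integrableOn_exp_neg_Ioi 0

lemma integrableOn_mul_exp_neg : IntegrableOn (fun x : ℝ => x * exp (-x)) (Ioi 0) := by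
  simpa using integrableOn_mul_exp_neg_mul (b := 1) one_pos

lemma integral_mul_exp_neg : ∫ x in Ioi (0:ℝ), x * exp (-x) = 1 := by
  simpa using integral_mul_exp_neg_mul (b := 1) one_pos

/-- class of functions stable under the averaging operators -/
structure Good (μ : ℝ) (h : ℝ → ℝ) : Prop where
  nonneg : ∀ u, 0 ≤ h u
  lip : ∀ u v, |h u - h v| ≤ |u - v|
  mean : ∀ u, μ - u ≤ h u
  lc : LC h

lemma continuous_of_lip {h : ℝ → ℝ} (hl : ∀ u v, |h u - h v| ≤ |u - v|) : Continuous h := by
  have : LipschitzWith 1 h := LipschitzWith.of_dist_le_mul (fun u v => by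
    simpa [Real.dist_eq] using hl u v)
  exact this.continuous

lemma integrableOn_Ta {h : ℝ → ℝ} (hl : ∀ u v, |h u - h v| ≤ |u - v|) (a u : ℝ) :
    IntegrableOn (fun x => h (u - a * x) * exp (-x)) (Ioi 0) := by
  have hc := continuous_of_lip hl
  have hbound : IntegrableOn (fun x : ℝ => |h u| * exp (-x) + |a| * (x * exp (-x))) (Ioi 0) :=
    (integrableOn_exp_neg'.const_mul _).add (integrableOn_mul_exp_neg.const_mul _)
  refine Integrable.mono' hbound ?_ ?_
  · apply Continuous.aestronglyMeasurable
    fun_prop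
  · refine (ae_restrict_iff' measurableSet_Ioi).mpr (Filter.Eventually.of_forall ?_)
    intro x hx
    have hx0 : (0:ℝ) < x := hx
    have h1 : |h (u - a * x)| ≤ |h u| + |a| * x := by
      have h2 := hl (u - a * x) u
      have h3 : |u - a * x - u| = |a| * x := by
        rw [show u - a * x - u = -(a * x) by ring, abs_neg, abs_mul, abs_of_pos hx0]
      rw [h3] at h2
      have h4 : |h (u - a * x)| ≤ |h (u - a * x) - h u| + |h u| := by
        have := abs_add_le (h (u - a * x) - h u) (h u)
        simpa using this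
      linarith
    rw [Real.norm_eq_abs, abs_mul, abs_of_pos (exp_pos _)]
    calc |h (u - a * x)| * exp (-x) ≤ (|h u| + |a| * x) * exp (-x) := by gcongr
      _ = |h u| * exp (-x) + |a| * (x * exp (-x)) := by ring

lemma Ta_one_eq (k : ℝ → ℝ) (t : ℝ) :
    Ta 1 k t = exp (-t) * ∫ y in Iic t, k y * exp y := by
  unfold Ta
  have h1 : ∫ x in Ioi (0:ℝ), k (t - 1 * x) * exp (-x) = ∫ y in Iio t, k y * exp (y - t) := by
    rw [← integral_indicator measurableSet_Ioi, ← integral_indicator measurableSet_Iio]
    rw [← integral_sub_left_eq_self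
      (fun y => indicator (Iio t) (fun y => k y * exp (y - t)) y) volume t]
    congr 1
    ext x
    by_cases hx : 0 < x
    · have h2 : t - x ∈ Iio t := by simp [hx]
      rw [indicator_of_mem (show x ∈ Ioi (0:ℝ) from hx), indicator_of_mem h2]
      congr 2
      · ring_nf
      · ring
    · have h2 : t - x ∉ Iio t := by simpa using hx
      rw [indicator_of_notMem (show x ∉ Ioi (0:ℝ) from hx), indicator_of_notMem h2]
  rw [h1, ← integral_Iic_eq_integral_Iio, ← integral_const_mul]
  congr 1
  ext y
  rw [sub_eq_add_neg, exp_add]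
  ring

lemma integrableOn_Iic_of_lip {h : ℝ → ℝ} (hl : ∀ u v, |h u - h v| ≤ |u - v|) (a t : ℝ) :
    IntegrableOn (fun y => (fun t => h (a * t)) y * exp y) (Iic t) := by
  have h0 := integrableOn_Ta hl a (a * t)
  rw [← integrable_indicator_iff measurableSet_Ioi] at h0
  have h1 := (h0.comp_sub_left t).const_mul (exp t)
  rw [integrableOn_Iic_iff_integrableOn_Iio, ← integrable_indicator_iff measurableSet_Iio]
  refine h1.congr (Filter.Eventually.of_forall (fun y => ?_))
  simp only
  by_cases hy : y < t
  · have h2 : t - y ∈ Ioi (0:ℝ) := by simpa using hy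
    rw [indicator_of_mem h2, indicator_of_mem (show y ∈ Iio t from hy)]
    have e1 : a * t - a * (t - y) = a * y := by ring
    have e2 : exp t * exp (-(t - y)) = exp y := by rw [← exp_add]; ring_nf
    rw [e1]
    calc exp t * (h (a * y) * exp (-(t - y))) = h (a * y) * (exp t * exp (-(t - y))) := by ring
      _ = h (a * y) * exp y := by rw [e2]
  · have h2 : t - y ∉ Ioi (0:ℝ) := by simpa using hy
    rw [indicator_of_notMem h2, indicator_of_notMem (show y ∉ Iio t from hy), mul_zero]

lemma Good_base (c : ℝ) : Good c (fun u => max (c - u) 0) where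
  nonneg := fun u => le_max_right _ _
  lip := fun u v => by
    have := abs_max_sub_max_le_abs (c - u) (c - v) 0
    calc |max (c - u) 0 - max (c - v) 0| ≤ |c - u - (c - v)| := this
      _ = |u - v| := by rw [show c - u - (c - v) = -(u - v) by ring, abs_neg]
  mean := fun u => le_max_left _ _
  lc := LC_base c

lemma Ta_zero (h : ℝ → ℝ) : Ta 0 h = h := by
  ext u
  unfold Ta
  simp only [zero_mul, sub_zero]
  rw [integral_const_mul, integral_exp_neg_Ioi_zero, mul_one]

lemma Ta_scale (a : ℝ) (ha : a ≠ 0) (h : ℝ → ℝ) :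
    Ta a h = fun u => Ta 1 (fun t => h (a * t)) (a⁻¹ * u) := by
  ext u
  unfold Ta
  congr 1
  ext x
  congr 2
  field_simp

lemma Good.Ta {μ : ℝ} {h : ℝ → ℝ} (hg : Good μ h) (a : ℝ) : Good (μ + a) (Ta a h) where
  nonneg := fun u => setIntegral_nonneg measurableSet_Ioi
    (fun x _ => mul_nonneg (hg.nonneg _) (exp_pos _).le)
  lip := fun u v => by
    unfold Crest.Agent.S0423.Ta
    rw [← integral_sub (integrableOn_Ta hg.lip a u) (integrableOn_Ta hg.lip a v)]
    have h1 : ‖∫ x in Ioi (0:ℝ), (h (u - a * x) * exp (-x) - h (v - a * x) * exp (-x))‖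
        ≤ ∫ x in Ioi (0:ℝ), |u - v| * exp (-x) := by
      refine norm_integral_le_of_norm_le (integrableOn_exp_neg'.const_mul _) ?_
      refine Filter.Eventually.of_forall (fun x => ?_)
      rw [← sub_mul, Real.norm_eq_abs, abs_mul, abs_of_pos (exp_pos _)]
      have := hg.lip (u - a * x) (v - a * x)
      rw [show u - a * x - (v - a * x) = u - v by ring] at this
      gcongr
    rw [integral_const_mul, integral_exp_neg_Ioi_zero, mul_one, Real.norm_eq_abs] at h1
    exact h1
  mean := fun u => by
    unfold Crest.Agent.S0423.Ta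
    have h1 : ∫ x in Ioi (0:ℝ), ((μ - u) * exp (-x) + a * (x * exp (-x))) = μ + a - u := by
      rw [integral_add (integrableOn_exp_neg'.const_mul _) (integrableOn_mul_exp_neg.const_mul _),
        integral_const_mul, integral_const_mul, integral_exp_neg_Ioi_zero, integral_mul_exp_neg]
      ring
    rw [← h1]
    refine integral_mono
      ((integrableOn_exp_neg'.const_mul _).add (integrableOn_mul_exp_neg.const_mul _))
      (integrableOn_Ta hg.lip a u) (fun x => ?_)
    have := hg.mean (u - a * x)
    have h2 : (μ - u) * exp (-x) + a * (x * exp (-x)) = (μ - (u - a * x)) * exp (-x) := by ring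
    simp only
    rw [h2]
    have := exp_pos (-x)
    gcongr
  lc := by
    by_cases ha : a = 0
    · subst ha
      rw [Ta_zero]
      exact hg.lc
    · rw [Ta_scale a ha]
      refine LC.scale (h := Crest.Agent.S0423.Ta 1 (fun t => h (a * t))) ?_ a⁻¹
      have heq : Crest.Agent.S0423.Ta 1 (fun t => h (a * t))
          = fun t => exp (-t) * ∫ y in Iic t, (fun t => h (a * t)) y * exp y := by
        ext t
        exact Ta_one_eq _ t
      rw [heq]
      refine LC_step (fun y => hg.nonneg _) ?_ (hg.lc.scale a)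
      intro t
      exact integrableOn_Iic_of_lip hg.lip a t

end Crest.Agent.S0423
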