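import Crest.Agent.S0423_aux.EBasic

/-! T2. The `n`-variable operator `Jop`: recursion (Fubini in one coordinate). -/

set_option autoImplicit false

namespace Crest.Agent.S0423lib

open MeasureTheory Set

/-- Lebesgue measure restricted to the positive half-line -/
noncomputable abbrev nuP : Measure ℝ := volume.restrict (Ioi (0 : ℝ))

theorem JRec_Jop_eq {n : ℕ} (a : Fin n → ℝ) (φ : ℝ → ℝ) (s : ℝ) :
    Jop a φ s = ∫ x, φ (s + ∑ i, a i * x i) * Real.exp (-∑ i, x i) ∂(Measure.pi fun _ : Fin n => nuP) := by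
  unfold Jop
  rw [volume_pi, Measure.restrict_pi_pi]

theorem JRec_integrable_exp (n : ℕ) :
    Integrable (fun x : Fin n → ℝ => Real.exp (-∑ i, x i)) (Measure.pi fun _ : Fin n => nuP) := by
  have h : ∀ i : Fin n, Integrable (fun x : ℝ => Real.exp (-x)) nuP := fun _ =>
    integrableOn_exp_neg_Ioi 0
  have := Integrable.fintype_prod (μ := fun _ : Fin n => nuP) h
  refine this.congr (Filter.Eventually.of_forall fun x => ?_)
  simp only
  rw [← Real.exp_sum, Finset.sum_neg_distrib]

theorem JRec_integrable {n : ℕ} (a : Fin n → ℝ) {φ : ℝ → ℝ} (hφ : BM φ) (s : ℝ) :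
    Integrable (fun x : Fin n → ℝ => φ (s + ∑ i, a i * x i) * Real.exp (-∑ i, x i))
      (Measure.pi fun _ : Fin n => nuP) := by
  refine (JRec_integrable_exp n).bdd_mul (c := 1) ?_ ?_
  · apply Measurable.aestronglyMeasurable
    apply hφ.meas.comp
    fun_prop
  · refine Filter.Eventually.of_forall fun x => ?_
    rw [Real.norm_eq_abs, abs_of_nonneg (hφ.nonneg _)]
    exact hφ.le_one _

/-- A1 -/
theorem Jop_zero (a : Fin 0 → ℝ) (φ : ℝ → ℝ) (s : ℝ) : Jop a φ s = φ s := by
  rw [JRec_Jop_eq]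
  rw [Measure.pi_of_empty, integral_dirac]
  simp

/-- A2: split off the coordinate `i`. -/
theorem Jop_succ {n : ℕ} (a : Fin (n + 1) → ℝ) (i : Fin (n + 1)) {φ : ℝ → ℝ} (hφ : BM φ) (s : ℝ) :
    Jop a φ s = Jop (fun j => a (i.succAbove j)) (Eop (a i) φ) s := by
  rw [JRec_Jop_eq, JRec_Jop_eq]
  have mp := (measurePreserving_piFinSuccAbove (fun _ : Fin (n + 1) => nuP) i).symm
  have hint := JRec_integrable a hφ s
  rw [← mp.integrable_comp_emb (MeasurableEquiv.measurableEmbedding _)] at hint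
  rw [← mp.integral_comp']
  have hint' : Integrable (fun z : ℝ × (Fin n → ℝ) =>
      φ (s + ∑ j, a j * (MeasurableEquiv.piFinSuccAbove (fun _ => ℝ) i).symm z j) *
        Real.exp (-∑ j, (MeasurableEquiv.piFinSuccAbove (fun _ => ℝ) i).symm z j))
      (nuP.prod (Measure.pi fun _ : Fin n => nuP)) := hint
  rw [integral_prod_symm _ hint']
  apply integral_congr_ae
  refine Filter.Eventually.of_forall fun x' => ?_
  simp only [MeasurableEquiv.piFinSuccAbove_symm_apply, Fin.insertNthEquiv_apply,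
    Fin.sum_univ_succAbove _ i, Fin.insertNth_apply_same, Fin.insertNth_apply_succAbove]
  unfold Eop
  rw [← integral_mul_const]
  apply integral_congr_ae
  refine Filter.Eventually.of_forall fun x₀ => ?_
  simp only
  rw [neg_add, Real.exp_add]
  have : s + (a i * x₀ + ∑ j, a (i.succAbove j) * x' j) = s + ∑ j, a (i.succAbove j) * x' j + a i * x₀ := by ring
  rw [this]
  ring

/-- A5 (induction on `n` with `Jop_zero`, `Jop_succ`, `BM_Eop`) -/
theorem BM_Jop {n : ℕ} (a : Fin n → ℝ) {φ : ℝ → ℝ} (hφ : BM φ) : BM (Jop a φ) := by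
  induction n generalizing φ with
  | zero =>
    have : Jop a φ = φ := funext fun s => Jop_zero a φ s
    rw [this]; exact hφ
  | succ n ih =>
    have : Jop a φ = Jop (fun j => a ((0 : Fin (n + 1)).succAbove j)) (Eop (a 0) φ) :=
      funext fun s => Jop_succ a 0 hφ s
    rw [this]
    exact ih _ (BM_Eop hφ _)

/-- A4 (induction on `n` with `Eop_one_sub`, or directly) -/
theorem Jop_one_sub {n : ℕ} (a : Fin n → ℝ) {φ : ℝ → ℝ} (hφ : BM φ) (s : ℝ) :
    Jop a (fun z => 1 - φ z) s = 1 - Jop a φ s := by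
  induction n generalizing φ s with
  | zero => rw [Jop_zero, Jop_zero]
  | succ n ih =>
    rw [Jop_succ a 0 hφ.one_sub, Jop_succ a 0 hφ]
    have : Eop (a 0) (fun z => 1 - φ z) = fun z => 1 - Eop (a 0) φ z :=
      funext fun y => Eop_one_sub hφ _ y
    rw [this]
    exact ih _ (BM_Eop hφ _) s

/-- zero coefficients (induction on `n` with `Eop_zero`) -/
theorem Jop_zero_coeff {n : ℕ} {φ : ℝ → ℝ} (hφ : BM φ) (s : ℝ) :
    Jop (fun _ : Fin n => (0 : ℝ)) φ s = φ s := by
  induction n with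
  | zero => rw [Jop_zero]
  | succ n ih =>
    rw [Jop_succ _ 0 hφ, Eop_zero]
    exact ih

end Crest.Agent.S0423lib
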