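import Crest.Agent.S0423_aux.JRec

/-! T3. `Wop` and its commutation with `Eop`, `Jop` (Fubini). -/

set_option autoImplicit false

namespace Crest.Agent.S0423lib

open MeasureTheory Set

theorem integrableOn_Wop {φ : ℝ → ℝ} (hφ : BM φ) (y : ℝ) :
    IntegrableOn (fun s => φ (y - s) * (s * Real.exp (-s))) (Ioi 0) := by
  refine integrableOn_id_mul_exp_one.bdd_mul (c := 1) ?_ ?_
  · apply Measurable.aestronglyMeasurable
    apply hφ.meas.comp
    fun_prop
  · refine Filter.Eventually.of_forall fun x => ?_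
    rw [Real.norm_eq_abs, abs_of_nonneg (hφ.nonneg _)]
    exact hφ.le_one _

/-- `Wop` preserves `BM`. -/
theorem BM_Wop {φ : ℝ → ℝ} (hφ : BM φ) : BM (Wop φ) := by
  refine ⟨?_, fun y => ?_, fun y => ?_⟩
  · have h : StronglyMeasurable
        (Function.uncurry fun (y s : ℝ) => φ (y - s) * (s * Real.exp (-s))) := by
      apply Measurable.stronglyMeasurable
      apply Measurable.mul
      · apply hφ.meas.comp
        fun_prop
      · fun_prop
    exact (h.integral_prod_right (ν := volume.restrict (Ioi (0 : ℝ)))).measurable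
  · apply setIntegral_nonneg measurableSet_Ioi
    intro x hx
    have hx' : (0 : ℝ) < x := hx
    exact mul_nonneg (hφ.nonneg _) (mul_nonneg hx'.le (Real.exp_pos _).le)
  · unfold Wop
    rw [← integral_id_mul_exp_one]
    apply setIntegral_mono_on (integrableOn_Wop hφ y) integrableOn_id_mul_exp_one measurableSet_Ioi
    intro x hx
    have hx' : (0 : ℝ) < x := hx
    have := hφ.le_one (y - x)
    have h2 : 0 ≤ x * Real.exp (-x) := mul_nonneg hx'.le (Real.exp_pos _).le
    nlinarith

/-- one-variable commutation (Fubini on `Ioi 0 × Ioi 0`) -/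
theorem Eop_Wop {φ : ℝ → ℝ} (hφ : BM φ) (c s : ℝ) :
    Eop c (Wop φ) s = Wop (Eop c φ) s := by
  unfold Eop Wop
  have hint : Integrable (Function.uncurry fun (x u : ℝ) =>
      φ (s + c * x - u) * (u * Real.exp (-u)) * Real.exp (-x))
      ((volume.restrict (Ioi (0 : ℝ))).prod (volume.restrict (Ioi (0 : ℝ)))) := by
    have h1 : Integrable (fun z : ℝ × ℝ => Real.exp (-z.1) * (z.2 * Real.exp (-z.2)))
        ((volume.restrict (Ioi (0 : ℝ))).prod (volume.restrict (Ioi (0 : ℝ)))) :=
      Integrable.mul_prod (integrableOn_exp_neg_Ioi 0) integrableOn_id_mul_exp_one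
    have h2 := h1.bdd_mul (c := 1) (f := fun z : ℝ × ℝ => φ (s + c * z.1 - z.2)) ?_ ?_
    · refine h2.congr (Filter.Eventually.of_forall fun z => ?_)
      simp only [Function.uncurry]
      ring
    · apply Measurable.aestronglyMeasurable
      apply hφ.meas.comp
      fun_prop
    · refine Filter.Eventually.of_forall fun x => ?_
      rw [Real.norm_eq_abs, abs_of_nonneg (hφ.nonneg _)]
      exact hφ.le_one _
  calc ∫ x in Ioi (0 : ℝ), (∫ u in Ioi (0 : ℝ), φ (s + c * x - u) * (u * Real.exp (-u))) * Real.exp (-x)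
      = ∫ x in Ioi (0 : ℝ), ∫ u in Ioi (0 : ℝ), φ (s + c * x - u) * (u * Real.exp (-u)) * Real.exp (-x) := by
        congr 1; funext x; rw [integral_mul_const]
    _ = ∫ u in Ioi (0 : ℝ), ∫ x in Ioi (0 : ℝ), φ (s + c * x - u) * (u * Real.exp (-u)) * Real.exp (-x) :=
        integral_integral_swap hint
    _ = ∫ u in Ioi (0 : ℝ), (∫ x in Ioi (0 : ℝ), φ (s - u + c * x) * Real.exp (-x)) * (u * Real.exp (-u)) := by
        congr 1; funext u; rw [← integral_mul_const]
        congr 1; funext x
        have : s + c * x - u = s - u + c * x := by ring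
        rw [this]; ring

/-- A3: `Jop` commutes with `Wop` (induction on `n` using `Jop_succ`, `Eop_Wop`; or directly by Fubini). -/
theorem Jop_Wop {n : ℕ} (a : Fin n → ℝ) {φ : ℝ → ℝ} (hφ : BM φ) (s : ℝ) :
    Jop a (Wop φ) s = Wop (Jop a φ) s := by
  induction n generalizing φ s with
  | zero =>
    have : Jop a φ = φ := funext fun s => Jop_zero a φ s
    rw [Jop_zero, this]
  | succ n ih =>
    have h1 : Jop a φ = Jop (fun j => a ((0 : Fin (n + 1)).succAbove j)) (Eop (a 0) φ) :=
      funext fun s => Jop_succ a 0 hφ s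
    have h2 : Eop (a 0) (Wop φ) = Wop (Eop (a 0) φ) := funext fun s => Eop_Wop hφ _ s
    rw [Jop_succ a 0 (BM_Wop hφ), h2, ih _ (BM_Eop hφ _), h1]

end Crest.Agent.S0423lib
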