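import Mathlib

set_option autoImplicit false

open MeasureTheory Set Real

namespace Crest.Agent.S0423

/-- Log-concavity in "exponential chord" form: every super-level set relative to an exponential
is order-connected. -/
def LC (h : ℝ → ℝ) : Prop :=
  ∀ C κ x z y : ℝ, 0 < C → x ≤ z → z ≤ y →
    C * exp (κ * x) ≤ h x → C * exp (κ * y) ≤ h y → C * exp (κ * z) ≤ h z

lemma LC.scale {h : ℝ → ℝ} (hh : LC h) (a : ℝ) : LC (fun t => h (a * t)) := by
  intro C κ x z y hC hxz hzy hx hy
  rcases lt_trichotomy a 0 with ha | ha | ha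
  · have ha' : a ≠ 0 := ha.ne
    have e : ∀ t, κ / a * (a * t) = κ * t := fun t => by field_simp
    have := hh C (κ / a) (a * y) (a * z) (a * x) hC
      (mul_le_mul_of_nonpos_left hzy ha.le) (mul_le_mul_of_nonpos_left hxz ha.le)
      (by rw [e]; exact hy) (by rw [e]; exact hx)
    rwa [e] at this
  · subst ha
    simp only [zero_mul] at hx hy ⊢
    rcases le_total 0 κ with hκ | hκ
    · refine le_trans ?_ hy
      gcongr
    · refine le_trans ?_ hx
      have : κ * z ≤ κ * x := mul_le_mul_of_nonpos_left hxz hκ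
      gcongr
  · have ha' : a ≠ 0 := ha.ne'
    have e : ∀ t, κ / a * (a * t) = κ * t := fun t => by field_simp
    have := hh C (κ / a) (a * x) (a * z) (a * y) hC
      (mul_le_mul_of_nonneg_left hxz ha.le) (mul_le_mul_of_nonneg_left hzy ha.le)
      (by rw [e]; exact hx) (by rw [e]; exact hy)
    rwa [e] at this

lemma LC_base (c : ℝ) : LC (fun u => max (c - u) 0) := by
  intro C κ x z y hC hxz hzy hx hy
  have hx' : C * exp (κ * x) ≤ c - x := by
    rcases le_max_iff.mp hx with h | h
    · exact h
    · exact absurd h (not_le.mpr (by positivity))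
  have hy' : C * exp (κ * y) ≤ c - y := by
    rcases le_max_iff.mp hy with h | h
    · exact h
    · exact absurd h (not_le.mpr (by positivity))
  refine le_trans ?_ (le_max_left _ _)
  rcases eq_or_lt_of_le (hxz.trans hzy) with hxy | hxy
  · have : z = x := le_antisymm (hxy ▸ hzy) hxz
    rw [this]; exact hx'
  · -- z = (1-θ) x + θ y
    set θ := (z - x) / (y - x) with hθ
    have hyx : 0 < y - x := sub_pos.mpr hxy
    have hθ0 : 0 ≤ θ := div_nonneg (sub_nonneg.mpr hxz) hyx.le
    have hθ1 : θ ≤ 1 := by rw [hθ, div_le_one hyx]; linarith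
    have hz : z = (1 - θ) * x + θ * y := by
      rw [hθ]; field_simp; ring
    have hconv := convexOn_exp.2 (mem_univ (κ * x)) (mem_univ (κ * y))
      (sub_nonneg.mpr hθ1) hθ0 (by ring)
    simp only [smul_eq_mul] at hconv
    have e1 : κ * z = (1 - θ) * (κ * x) + θ * (κ * y) := by rw [hz]; ring
    rw [e1]
    calc C * exp ((1 - θ) * (κ * x) + θ * (κ * y))
        ≤ C * ((1 - θ) * exp (κ * x) + θ * exp (κ * y)) := by gcongr
      _ = (1 - θ) * (C * exp (κ * x)) + θ * (C * exp (κ * y)) := by ring
      _ ≤ (1 - θ) * (c - x) + θ * (c - y) := by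
          have := sub_nonneg.mpr hθ1
          gcongr
      _ = c - z := by rw [hz]; ring

/-- Key step: integration against the exponential kernel preserves `LC`. -/
lemma LC_step {k : ℝ → ℝ} (hk0 : ∀ y, 0 ≤ k y)
    (hint : ∀ t, IntegrableOn (fun y => k y * exp y) (Iic t)) (hk : LC k) :
    LC (fun t => exp (-t) * ∫ y in Iic t, k y * exp y) := by
  intro C κ x z y hC hxz hzy hx hy
  simp only at hx hy ⊢
  set P₀ : ℝ → ℝ := fun t => ∫ y in Iic t, k y * exp y with hP₀
  have hsplit : ∀ (f : ℝ → ℝ), (∀ t, IntegrableOn f (Iic t)) → ∀ a b : ℝ, a ≤ b →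
      ∫ v in Iic b, f v = (∫ v in Iic a, f v) + ∫ v in Ioc a b, f v := by
    intro f hf a b hab
    rw [← Iic_union_Ioc_eq_Iic hab]
    refine setIntegral_union ?_ measurableSet_Ioc (hf a) ((hf b).mono_set Ioc_subset_Iic_self)
    exact Set.disjoint_left.mpr (fun v hv hv' => absurd hv'.1 (not_lt.mpr hv))
  -- reformulation
  have key : ∀ t, C * exp (κ * t) ≤ exp (-t) * P₀ t ↔ C * exp ((1 + κ) * t) ≤ P₀ t := by
    intro t
    have e1 : exp ((1 + κ) * t) = exp t * exp (κ * t) := by rw [← exp_add]; ring_nf
    have e2 : exp (-t) * exp t = 1 := by rw [← exp_add]; simp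
    constructor
    · intro h
      have := mul_le_mul_of_nonneg_left h (exp_pos t).le
      calc C * exp ((1 + κ) * t) = exp t * (C * exp (κ * t)) := by rw [e1]; ring
        _ ≤ exp t * (exp (-t) * P₀ t) := this
        _ = (exp (-t) * exp t) * P₀ t := by ring
        _ = P₀ t := by rw [e2, one_mul]
    · intro h
      have := mul_le_mul_of_nonneg_left h (exp_pos (-t)).le
      calc C * exp (κ * t) = (exp (-t) * exp t) * (C * exp (κ * t)) := by rw [e2, one_mul]
        _ = exp (-t) * (C * exp ((1 + κ) * t)) := by rw [e1]; ring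
        _ ≤ exp (-t) * P₀ t := this
  rw [key] at hx hy ⊢
  rcases le_or_gt (1 + κ) 0 with hκ | hκ
  · have hmono : P₀ x ≤ P₀ z := by
      have := hsplit _ hint x z hxz
      have h2 : 0 ≤ ∫ v in Ioc x z, k v * exp v :=
        setIntegral_nonneg measurableSet_Ioc (fun v _ => mul_nonneg (hk0 v) (exp_pos v).le)
      simp only [hP₀]
      linarith
    have : (1 + κ) * z ≤ (1 + κ) * x := mul_le_mul_of_nonpos_left hxz hκ
    calc C * exp ((1 + κ) * z) ≤ C * exp ((1 + κ) * x) := by gcongr
      _ ≤ P₀ x := hx
      _ ≤ P₀ z := hmono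
  · set C' := C * (1 + κ) with hC'
    have hC'pos : 0 < C' := mul_pos hC hκ
    set φ : ℝ → ℝ := fun v => (k v - C' * exp (κ * v)) * exp v with hφ
    have hexpint : ∀ t, IntegrableOn (fun v => C' * exp ((1 + κ) * v)) (Iic t) :=
      fun t => (integrableOn_exp_mul_Iic hκ t).const_mul C'
    have hφeq : ∀ v, φ v = k v * exp v - C' * exp ((1 + κ) * v) := by
      intro v
      have e1 : exp ((1 + κ) * v) = exp (κ * v) * exp v := by rw [← exp_add]; ring_nf
      simp only [hφ]; rw [e1]; ring
    have hφint : ∀ t, IntegrableOn φ (Iic t) := by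
      intro t
      have := (hint t).sub (hexpint t)
      refine this.congr ?_
      exact Filter.Eventually.of_forall (fun v => (hφeq v).symm)
    have hP : ∀ t, ∫ v in Iic t, φ v = P₀ t - C * exp ((1 + κ) * t) := by
      intro t
      have h1 : ∫ v in Iic t, φ v
          = ∫ v in Iic t, (k v * exp v - C' * exp ((1 + κ) * v)) :=
        integral_congr_ae (Filter.Eventually.of_forall hφeq)
      rw [h1, integral_sub (hint t) (hexpint t), integral_const_mul, integral_exp_mul_Iic hκ]
      simp only [hP₀, hC']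
      field_simp
    by_contra hcon
    push Not at hcon
    have hPx : 0 ≤ ∫ v in Iic x, φ v := by rw [hP]; linarith
    have hPy : 0 ≤ ∫ v in Iic y, φ v := by rw [hP]; linarith
    have hPz : ∫ v in Iic z, φ v < 0 := by rw [hP]; linarith
    -- Step 1
    obtain ⟨v₂, hv₂, hψ₂⟩ : ∃ v₂ ∈ Ioc z y, 0 < k v₂ - C' * exp (κ * v₂) := by
      by_contra hno
      push Not at hno
      have : ∫ v in Ioc z y, φ v ≤ 0 :=
        setIntegral_nonpos measurableSet_Ioc
          (fun v hv => mul_nonpos_of_nonpos_of_nonneg (hno v hv) (exp_pos v).le)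
      have h2 := hsplit φ hφint z y hzy
      linarith
    -- Step 2
    obtain ⟨v₁, hv₁, hψ₁⟩ : ∃ v₁ ∈ Ioc x z, k v₁ - C' * exp (κ * v₁) < 0 := by
      by_contra hno
      push Not at hno
      have : 0 ≤ ∫ v in Ioc x z, φ v :=
        setIntegral_nonneg measurableSet_Ioc
          (fun v hv => mul_nonneg (hno v hv) (exp_pos v).le)
      have h2 := hsplit φ hφint x z hxz
      linarith
    -- Step 3
    have hneg : ∀ v ≤ v₁, k v - C' * exp (κ * v) < 0 := by
      intro v hv
      by_contra hno
      push Not at hno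
      have := hk C' κ v v₁ v₂ hC'pos hv (hv₁.2.trans hv₂.1.le) (by linarith) (by linarith)
      linarith
    -- Step 4
    have hpos : 0 < ∫ v in Iic x, (fun v => - φ v) v := by
      rw [setIntegral_pos_iff_support_of_nonneg_ae]
      · have hsub : Iic x ⊆ Function.support (fun v => - φ v) ∩ Iic x := by
          intro v hv
          refine ⟨?_, hv⟩
          have h1 := hneg v (le_trans hv hv₁.1.le)
          have h2 : φ v < 0 := mul_neg_of_neg_of_pos h1 (exp_pos v)
          simp only [Function.mem_support]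
          linarith
        refine lt_of_lt_of_le ?_ (measure_mono hsub)
        simp
      · refine (ae_restrict_iff' measurableSet_Iic).mpr (Filter.Eventually.of_forall ?_)
        intro v hv
        have h1 := hneg v (le_trans hv hv₁.1.le)
        have h2 : φ v < 0 := mul_neg_of_neg_of_pos h1 (exp_pos v)
        simp only [Pi.zero_apply]
        linarith
      · exact (hφint x).neg
    rw [integral_neg] at hpos
    linarith

end Crest.Agent.S0423
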