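import Crest.Agent.S0423_aux.Good

set_option autoImplicit false

open MeasureTheory Set Real

namespace Crest.Agent.S0423

/-- three point log-concavity from `LC` -/
lemma LC.three {h : ℝ → ℝ} (hh : LC h) {x z y : ℝ} (hxz : x ≤ z) (hzy : z ≤ y) (hxy : x < y)
    (hx : 0 < h x) (hy : 0 < h y) :
    0 < h z ∧ (y - z) * log (h x) + (z - x) * log (h y) ≤ (y - x) * log (h z) := by
  set lam := (log (h y) - log (h x)) / (y - x) with hlam
  have hyx : 0 < y - x := sub_pos.mpr hxy
  set C := h x * exp (-(lam * x)) with hC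
  have hCpos : 0 < C := by positivity
  have e1 : C * exp (lam * x) = h x := by
    rw [hC, mul_assoc, ← exp_add]; simp
  have e2 : C * exp (lam * y) = h y := by
    rw [hC, mul_assoc, ← exp_add]
    have : -(lam * x) + lam * y = log (h y) - log (h x) := by
      rw [hlam]; field_simp; ring
    rw [this, exp_sub, exp_log hx, exp_log hy]
    field_simp
  have h3 := hh C lam x z y hCpos hxz hzy e1.le e2.le
  have hzpos : 0 < h z := lt_of_lt_of_le (by positivity) h3
  refine ⟨hzpos, ?_⟩
  have h4 : log (C * exp (lam * z)) ≤ log (h z) := log_le_log (by positivity) h3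
  rw [log_mul hCpos.ne' (exp_pos _).ne', log_exp, hC, log_mul hx.ne' (exp_pos _).ne', log_exp] at h4
  have h5 : (y - x) * (log (h x) + -(lam * x) + lam * z) ≤ (y - x) * log (h z) := by gcongr
  have h6 : (y - x) * (log (h x) + -(lam * x) + lam * z)
      = (y - z) * log (h x) + (z - x) * log (h y) := by
    rw [hlam]; field_simp; ring
  linarith

theorem main_ineq {h : ℝ → ℝ} (hg : Good (4/3) h) :
    (4/9) * exp (-(1/3)) ≤ ∫ u in Ioi (0:ℝ), (1 - u) * exp (-u) * h u := by
  set a₀ := h 0 with ha₀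
  set a₁ := h 1 with ha₁
  have h1 : 1/3 ≤ a₁ := by have := hg.mean 1; linarith
  have h0 : 4/3 ≤ a₀ := by have := hg.mean 0; linarith
  have h01 : a₀ ≤ a₁ + 1 := by
    have := hg.lip 0 1
    have h2 := le_abs_self (h 0 - h 1)
    norm_num at this
    linarith
  have ha₀pos : 0 < a₀ := by linarith
  have ha₁pos : 0 < a₁ := by linarith
  set κ := log a₀ - log a₁ with hκ
  -- E1
  have E1 : ∀ u, 0 ≤ u → u ≤ 1 → a₀ * exp (-(κ * u)) ≤ h u := by
    intro u hu0 hu1
    obtain ⟨hpos, hl⟩ := hg.lc.three hu0 hu1 one_pos ha₀pos ha₁pos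
    rw [← exp_log hpos, ← exp_log ha₀pos, ← exp_add]
    apply exp_le_exp.mpr
    have : (1 - u) * log a₀ + (u - 0) * log a₁ ≤ (1 - 0) * log (h u) := hl
    rw [hκ]
    nlinarith
  -- E2
  have E2 : ∀ u, 1 ≤ u → h u ≤ a₀ * exp (-(κ * u)) := by
    intro u hu1
    rcases (hg.nonneg u).eq_or_lt with hz | hpos
    · rw [← hz]; positivity
    · obtain ⟨_, hl⟩ := hg.lc.three (x := 0) (z := 1) (y := u) zero_le_one hu1 (by linarith)
        ha₀pos hpos
      rw [← exp_log hpos, ← exp_log ha₀pos, ← exp_add]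
      apply exp_le_exp.mpr
      have : (u - 1) * log a₀ + (1 - 0) * log (h u) ≤ (u - 0) * log a₁ := hl
      rw [hκ]
      nlinarith
  -- E3
  have E3 : ∀ y, y ≤ 0 → h y ≤ a₀ * exp (-(κ * y)) := by
    intro y hy0
    rcases (hg.nonneg y).eq_or_lt with hz | hpos
    · rw [← hz]; positivity
    · obtain ⟨_, hl⟩ := hg.lc.three (x := y) (z := 0) (y := 1) hy0 zero_le_one (by linarith)
        hpos ha₁pos
      rw [← exp_log hpos, ← exp_log ha₀pos, ← exp_add]
      apply exp_le_exp.mpr
      have : (1 - 0) * log (h y) + (0 - y) * log a₁ ≤ (1 - y) * log a₀ := hl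
      rw [hκ]
      nlinarith
  -- κ > 0
  have hκpos : 0 < κ := by
    by_contra hcon
    push Not at hcon
    have h2 := E3 (-a₀) (by linarith)
    have h3 := hg.mean (-a₀)
    have h4 : exp (-(κ * -a₀)) ≤ 1 := by
      rw [exp_le_one_iff]
      nlinarith
    nlinarith
  -- κ ≤ 3/2
  have hκle : κ ≤ 3/2 := by
    have h2 : a₀ ≤ 4 * a₁ := by linarith
    have h3 : log a₀ ≤ log (4 * a₁) := log_le_log ha₀pos h2
    rw [log_mul (by norm_num) ha₁pos.ne'] at h3
    have h4 : log 4 ≤ 3/2 := by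
      rw [log_le_iff_le_exp (by norm_num)]
      have h5 : (1:ℝ) + 3/4 + (3/4)^2/2 ≤ exp (3/4) := quadratic_le_exp_of_nonneg (by norm_num)
      have h6 : exp (3/2) = exp (3/4) * exp (3/4) := by rw [← exp_add]; norm_num
      rw [h6]
      nlinarith
    rw [hκ]; linarith
  have hb : 0 < 1 + κ := by linarith
  -- integral of the comparison function
  have hU : ∫ u in Ioi (0:ℝ), (1 - u) * exp (-u) * (a₀ * exp (-(κ * u)))
      = a₀ * κ / (1 + κ) ^ 2 := by
    have e : ∀ u : ℝ, (1 - u) * exp (-u) * (a₀ * exp (-(κ * u)))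
        = a₀ * exp (-((1 + κ) * u)) - a₀ * (u * exp (-((1 + κ) * u))) := by
      intro u
      have : exp (-((1 + κ) * u)) = exp (-u) * exp (-(κ * u)) := by rw [← exp_add]; ring_nf
      rw [this]; ring
    simp_rw [e]
    rw [integral_sub ((integrableOn_exp_neg_mul hb).const_mul _)
      ((integrableOn_mul_exp_neg_mul hb).const_mul _), integral_const_mul, integral_const_mul,
      integral_exp_neg_mul hb, integral_mul_exp_neg_mul hb]
    field_simp
    ring
  have hUint : IntegrableOn (fun u => (1 - u) * exp (-u) * (a₀ * exp (-(κ * u)))) (Ioi 0) := by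
    have e : ∀ u : ℝ, (1 - u) * exp (-u) * (a₀ * exp (-(κ * u)))
        = a₀ * exp (-((1 + κ) * u)) - a₀ * (u * exp (-((1 + κ) * u))) := by
      intro u
      have : exp (-((1 + κ) * u)) = exp (-u) * exp (-(κ * u)) := by rw [← exp_add]; ring_nf
      rw [this]; ring
    simp_rw [e]
    exact ((integrableOn_exp_neg_mul hb).const_mul _).sub
      ((integrableOn_mul_exp_neg_mul hb).const_mul _)
  -- bound on h on [0,∞)
  have hbd : ∀ u, 0 ≤ u → h u ≤ a₀ + 1 := by
    intro u hu
    rcases le_total u 1 with hu1 | hu1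
    · have := hg.lip u 0
      have h2 := le_abs_self (h u - h 0)
      rw [sub_zero, abs_of_nonneg hu] at this
      linarith
    · have h2 := E2 u hu1
      have h4 : exp (-(κ * u)) ≤ 1 := by
        rw [exp_le_one_iff]
        nlinarith
      nlinarith
  have hhint : IntegrableOn (fun u => (1 - u) * exp (-u) * h u) (Ioi 0) := by
    have hc := continuous_of_lip hg.lip
    have hbound : IntegrableOn (fun x : ℝ => (a₀ + 1) * (exp (-x) + x * exp (-x))) (Ioi 0) :=
      (integrableOn_exp_neg'.add integrableOn_mul_exp_neg).const_mul _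
    refine Integrable.mono' hbound ?_ ?_
    · apply Continuous.aestronglyMeasurable
      fun_prop
    · refine (ae_restrict_iff' measurableSet_Ioi).mpr (Filter.Eventually.of_forall ?_)
      intro x hx
      have hx0 : (0:ℝ) < x := hx
      rw [Real.norm_eq_abs, abs_mul, abs_mul, abs_of_pos (exp_pos _), abs_of_nonneg (hg.nonneg x)]
      have h2 : |1 - x| ≤ 1 + x := by
        rw [abs_le]; constructor <;> linarith
      have h3 := hbd x hx0.le
      have h4 := hg.nonneg x
      have h5 := exp_pos (-x)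
      calc |1 - x| * exp (-x) * h x ≤ (1 + x) * exp (-x) * (a₀ + 1) := by gcongr
        _ = (a₀ + 1) * (exp (-x) + x * exp (-x)) := by ring
  have hJ : a₀ * κ / (1 + κ) ^ 2 ≤ ∫ u in Ioi (0:ℝ), (1 - u) * exp (-u) * h u := by
    rw [← hU]
    refine setIntegral_mono_on hUint hhint measurableSet_Ioi ?_
    intro u hu
    have hu0 : (0:ℝ) < u := hu
    have h5 := exp_pos (-u)
    rcases le_total u 1 with hu1 | hu1
    · have := E1 u hu0.le hu1
      have h6 : 0 ≤ (1 - u) * exp (-u) := mul_nonneg (by linarith) h5.le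
      exact mul_le_mul_of_nonneg_left this h6
    · have := E2 u hu1
      have h6 : (1 - u) * exp (-u) ≤ 0 := mul_nonpos_of_nonpos_of_nonneg (by linarith) h5.le
      exact mul_le_mul_of_nonpos_left this h6
  refine le_trans ?_ hJ
  rcases le_total κ (3/4) with hk | hk
  · -- main regime
    set y₀ := 4/3 - 1/κ with hy₀
    have hy₀le : y₀ ≤ 0 := by
      rw [hy₀]
      have : 4/3 ≤ 1/κ := by
        rw [le_div_iff₀ hκpos]; linarith
      linarith
    have h2 := E3 y₀ hy₀le
    have h3 := hg.mean y₀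
    have h4 : 1/κ ≤ a₀ * exp (-(κ * y₀)) := by
      have : 4/3 - y₀ = 1/κ := by rw [hy₀]; ring
      linarith
    have h5 : -(κ * y₀) = 1 - 4/3 * κ := by
      rw [hy₀]; field_simp; ring
    rw [h5] at h4
    -- a₀ κ ≥ exp (4κ/3 - 1)
    have h6 : exp (4/3 * κ - 1) ≤ a₀ * κ := by
      have h7 : exp (4/3 * κ - 1) * exp (1 - 4/3 * κ) = 1 := by rw [← exp_add]; simp
      have h8 : 1 ≤ a₀ * κ * exp (1 - 4/3 * κ) := by
        have := mul_le_mul_of_nonneg_left h4 hκpos.le
        rw [mul_one_div_cancel hκpos.ne'] at this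
        linarith
      have h9 := exp_pos (1 - 4/3 * κ)
      have h10 := exp_pos (4/3 * κ - 1)
      by_contra hcon
      push Not at hcon
      have : a₀ * κ * exp (1 - 4/3 * κ) < exp (4/3 * κ - 1) * exp (1 - 4/3 * κ) := by gcongr
      linarith
    have h7 : (4/9) * exp (-(1/3)) * (1 + κ) ^ 2 ≤ exp (4/3 * κ - 1) := by
      set w := (2 * κ - 1) / 3 with hw
      have h8 : 1 + w ≤ exp w := by linarith [add_one_le_exp w]
      have h9 : 0 < 1 + w := by rw [hw]; linarith
      have h10 : exp (4/3 * κ - 1) = exp (-(1/3)) * (exp w * exp w) := by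
        rw [← exp_add, ← exp_add]; congr 1; rw [hw]; ring
      rw [h10]
      have h11 : (1 + w) * (1 + w) ≤ exp w * exp w := by gcongr
      have h12 : (4/9) * (1 + κ) ^ 2 = (1 + w) * (1 + w) := by rw [hw]; ring
      have h13 := exp_pos (-(1/3) : ℝ)
      calc (4/9) * exp (-(1/3)) * (1 + κ) ^ 2 = exp (-(1/3)) * ((4/9) * (1 + κ) ^ 2) := by ring
        _ = exp (-(1/3)) * ((1 + w) * (1 + w)) := by rw [h12]
        _ ≤ exp (-(1/3)) * (exp w * exp w) := by gcongr
    rw [le_div_iff₀ (by positivity)]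
    linarith
  · -- middle regime
    have h2 : exp (-(1/3) : ℝ) ≤ 18/25 := by
      have h3 : (1:ℝ) + 1/3 + (1/3)^2/2 ≤ exp (1/3) := quadratic_le_exp_of_nonneg (by norm_num)
      rw [exp_neg]
      rw [inv_le_comm₀ (exp_pos _) (by norm_num)]
      norm_num at h3 ⊢
      linarith
    rw [le_div_iff₀ (by positivity)]
    have h3 : (6/25) * (1 + κ) ^ 2 ≤ κ := by nlinarith
    have h4 : (4/9) * exp (-(1/3)) ≤ 8/25 := by linarith
    have h5 : 0 ≤ (1 + κ) ^ 2 := by positivity
    calc (4/9) * exp (-(1/3)) * (1 + κ) ^ 2 ≤ 8/25 * (1 + κ) ^ 2 := by gcongr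
      _ = 4/3 * ((6/25) * (1 + κ) ^ 2) := by ring
      _ ≤ 4/3 * κ := by gcongr
      _ ≤ a₀ * κ := by gcongr

end Crest.Agent.S0423
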