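import Crest.Agent.S0423_aux.Basic

/-!
The exponential law `μe`, the averaging operator `T a f y = E f (y + a X)`, and preservation of
the four-point log-concavity.
-/

set_option autoImplicit false

namespace Crest.Agent.S0423aux

open MeasureTheory Set

/-- The law of a mean-one exponential variable. -/
noncomputable def μe : Measure ℝ :=
  (volume.restrict (Ioi (0:ℝ))).withDensity (fun t => ENNReal.ofReal (Real.exp (-t)))

theorem integral_μe (f : ℝ → ℝ) :
    ∫ t, f t ∂μe = ∫ t in Ioi (0:ℝ), f t * Real.exp (-t) := by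
  unfold μe
  rw [integral_withDensity_eq_integral_toReal_smul]
  · apply integral_congr_ae
    filter_upwards with t
    rw [ENNReal.toReal_ofReal (Real.exp_pos _).le, smul_eq_mul, mul_comm]
  · fun_prop
  · filter_upwards with t using ENNReal.ofReal_lt_top

theorem setIntegral_μe (f : ℝ → ℝ) {s : Set ℝ} (hs : MeasurableSet s) :
    ∫ t in s, f t ∂μe = ∫ t in s ∩ Ioi (0:ℝ), f t * Real.exp (-t) := by
  rw [← integral_indicator hs, integral_μe, ← integral_indicator measurableSet_Ioi,
    ← integral_indicator (hs.inter measurableSet_Ioi)]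
  congr 1
  ext t
  by_cases h1 : t ∈ s <;> by_cases h2 : t ∈ Ioi (0:ℝ) <;> simp [indicator, h1, h2]

instance : IsProbabilityMeasure μe := by
  constructor
  unfold μe
  rw [withDensity_apply _ MeasurableSet.univ, Measure.restrict_univ]
  rw [← ofReal_integral_eq_lintegral_ofReal]
  · rw [integral_exp_neg_Ioi_zero]; simp
  · exact integrableOn_exp_neg_Ioi 0
  · filter_upwards with t using (Real.exp_pos _).le

theorem ae_pos_μe : ∀ᵐ t ∂μe, 0 < t := by
  have h : μe ≪ volume.restrict (Ioi (0:ℝ)) := withDensity_absolutelyContinuous _ _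
  exact h.ae_le (ae_restrict_mem measurableSet_Ioi)

theorem integrable_μe_of_bdd {F : ℝ → ℝ} (hF : Measurable F) {C : ℝ} (hC : ∀ t, |F t| ≤ C) :
    Integrable F μe :=
  Integrable.of_bound hF.aestronglyMeasurable C (Filter.Eventually.of_forall hC)

/-- Averaging operator: `T a f y = E f (y + a X)` with `X` mean-one exponential. -/
noncomputable def T (a : ℝ) (f : ℝ → ℝ) (y : ℝ) : ℝ := ∫ t, f (y + a * t) ∂μe

/-- Memoryless property. -/
theorem integral_μe_split (F : ℝ → ℝ) (hF : Integrable F μe) {δ : ℝ} (hδ : 0 ≤ δ) :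
    ∫ t, F t ∂μe = ∫ t in Ioc 0 δ, F t ∂μe + Real.exp (-δ) * ∫ t, F (t + δ) ∂μe := by
  have h1 : ∫ t, F t ∂μe = ∫ t in Ioc 0 δ, F t ∂μe + ∫ t in Ioi δ, F t ∂μe := by
    have hu : ∫ t in Ioi (0:ℝ), F t ∂μe = ∫ t, F t ∂μe := by
      rw [setIntegral_μe _ measurableSet_Ioi, integral_μe, inter_self]
    rw [← hu, ← Ioc_union_Ioi_eq_Ioi hδ]
    exact setIntegral_union (Ioc_disjoint_Ioi le_rfl) measurableSet_Ioi hF.integrableOn
      hF.integrableOn
  rw [h1]
  congr 1
  rw [setIntegral_μe _ measurableSet_Ioi, integral_μe]
  have hI : Ioi δ ∩ Ioi (0:ℝ) = Ioi δ := by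
    ext t; simp only [mem_inter_iff, mem_Ioi]; constructor
    · exact fun h => h.1
    · exact fun h => ⟨h, lt_of_le_of_lt hδ h⟩
  rw [hI]
  have hp := (measurePreserving_add_right (volume : Measure ℝ) δ).setIntegral_preimage_emb
    (measurableEmbedding_addRight δ) (fun t => F t * Real.exp (-t)) (Ioi δ)
  rw [← hp, ← integral_const_mul]
  have hpre : (fun x : ℝ => x + δ) ⁻¹' Ioi δ = Ioi 0 := by
    ext t; simp
  rw [hpre]
  apply integral_congr_ae
  filter_upwards with t
  rw [neg_add, Real.exp_add]
  ring


section Tprops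

variable {f : ℝ → ℝ}

theorem T_zero (f : ℝ → ℝ) : T 0 f = f := by
  ext y
  simp [T]

/-- `T a` preserves the four-point log-concavity, case `a > 0`. -/
theorem LC_T_pos {a : ℝ} (hInt : ∀ y, Integrable (fun t => f (y + a * t)) μe) (hLC : LC f)
    (ha : 0 < a) : LC (T a f) := by
  intro u v d huv hd
  set δ := d / a with hδdef
  have hδ : 0 ≤ δ := div_nonneg hd ha.le
  have haδ : a * δ = d := by rw [hδdef]; field_simp
  have split : ∀ x, T a f x = ∫ t in Ioc 0 δ, f (x + a * t) ∂μe + Real.exp (-δ) * T a f (x + d) := by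
    intro x
    have := integral_μe_split (fun t => f (x + a * t)) (hInt x) hδ
    unfold T
    rw [this]
    congr 2
    apply integral_congr_ae
    filter_upwards with t
    congr 1
    rw [mul_add, haδ]; ring
  -- key inequality
  have key : (∫ t in Ioc 0 δ, f (u + a * t) ∂μe) * T a f (v + d)
      ≤ T a f (u + d) * ∫ t in Ioc 0 δ, f (v + a * t) ∂μe := by
    rw [← integral_mul_const, mul_comm, ← integral_mul_const]
    apply setIntegral_mono_on
    · exact ((hInt u).mul_const _).integrableOn
    · exact ((hInt v).mul_const _).integrableOn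
    · exact measurableSet_Ioc
    · intro t ht
      unfold T
      rw [← integral_const_mul, ← integral_const_mul]
      apply integral_mono_ae
      · exact (hInt (v + d)).const_mul _
      · exact (hInt (u + d)).const_mul _
      · filter_upwards [ae_pos_μe] with t' ht'
        have h := hLC (u + a * t) (u + d + a * t') (v - u)
          (by
            have : a * t ≤ a * δ := mul_le_mul_of_nonneg_left ht.2 ha.le
            have h2 : 0 ≤ a * t' := mul_nonneg ha.le ht'.le
            linarith) (by linarith)
        have e1 : u + d + a * t' + (v - u) = v + d + a * t' := by ring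
        have e2 : u + a * t + (v - u) = v + a * t := by ring
        rw [e1, e2] at h
        exact h
  rw [split u, split v]
  nlinarith [key]

/-- Reflection. -/
theorem LC.reflect (hLC : LC f) : LC (fun y => f (-y)) := by
  intro u v d huv hd
  have h := hLC (-(v + d)) (-(u + d)) d (by linarith) hd
  have e1 : -(u + d) + d = -u := by ring
  have e2 : -(v + d) + d = -v := by ring
  rw [e1, e2] at h
  linarith

theorem T_reflect (a : ℝ) (f : ℝ → ℝ) (y : ℝ) : T a f y = T (-a) (fun z => f (-z)) (-y) := by
  unfold T
  apply integral_congr_ae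
  filter_upwards with t
  congr 1
  ring

/-- `T a` preserves the four-point log-concavity. -/
theorem LC_T {a : ℝ} (hInt : ∀ y, Integrable (fun t => f (y + a * t)) μe) (hLC : LC f) :
    LC (T a f) := by
  rcases lt_trichotomy a 0 with ha | ha | ha
  · have hInt' : ∀ y, Integrable (fun t => (fun z => f (-z)) (y + -a * t)) μe := by
      intro y
      have := hInt (-y)
      refine this.congr ?_
      filter_upwards with t
      show f (-y + a * t) = f (-(y + -a * t))
      congr 1; ring
    have h := (LC_T_pos (f := fun z => f (-z)) hInt' hLC.reflect (a := -a) (by linarith)).reflect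
    have e : (fun y => T (-a) (fun z => f (-z)) (-y)) = T a f := by
      ext y; exact (T_reflect a f y).symm
    rwa [e] at h
  · rw [ha, T_zero]; exact hLC
  · exact LC_T_pos hInt hLC ha

end Tprops

end Crest.Agent.S0423aux
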