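import Crest.Agent.S0423_aux.Adm
import Crest.Prelude.Def_TruncExpWeight

/-!
The pairing `Psi A w = E[(1 - X) A (w - X)]`, its value on the positive part, and commutation with `T a`.
-/

set_option autoImplicit false

namespace Crest.Agent.S0423aux

open MeasureTheory Set

/-- `Psi A w = ∫ (1 - x) A (w - x) dμe(x)`. -/
noncomputable def Psi (A : ℝ → ℝ) (w : ℝ) : ℝ := ∫ x, (1 - x) * A (w - x) ∂μe

theorem Psi_pos_of_nonpos {w : ℝ} (hw : w ≤ 0) : Psi pos w = 0 := by
  unfold Psi
  rw [integral_eq_zero_of_ae]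
  filter_upwards [ae_pos_μe] with x hx
  have : pos (w - x) = 0 := max_eq_right (by linarith)
  simp [this]

theorem Psi_pos_of_pos {w : ℝ} (hw : 0 < w) : Psi pos w = 1 - (1 + w) * Real.exp (-w) := by
  unfold Psi
  rw [integral_μe]
  have h1 : ∫ x in Ioi (0:ℝ), (1 - x) * pos (w - x) * Real.exp (-x)
      = ∫ x in Ioc (0:ℝ) w, (1 - x) * (w - x) * Real.exp (-x) := by
    rw [← Ioc_union_Ioi_eq_Ioi hw.le, setIntegral_union (Ioc_disjoint_Ioi le_rfl) measurableSet_Ioi]
    · have h2 : ∫ x in Ioi w, (1 - x) * pos (w - x) * Real.exp (-x) = 0 := by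
        apply setIntegral_eq_zero_of_forall_eq_zero
        intro x hx
        have : pos (w - x) = 0 := max_eq_right (by have := mem_Ioi.mp hx; linarith)
        simp [this]
      rw [h2, add_zero]
      apply setIntegral_congr_fun measurableSet_Ioc
      intro x hx
      have : pos (w - x) = w - x := max_eq_left (by linarith [hx.2])
      simp only [this]
    · have hc : ContinuousOn (fun x => (1 - x) * pos (w - x) * Real.exp (-x)) (Icc 0 w) := by
        unfold pos; fun_prop
      exact (hc.integrableOn_Icc).mono_set Ioc_subset_Icc_self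
    · have : IntegrableOn (fun _ : ℝ => (0:ℝ)) (Ioi w) := integrableOn_zero
      refine this.congr_fun ?_ measurableSet_Ioi
      intro x hx
      have : pos (w - x) = 0 := max_eq_right (by have := mem_Ioi.mp hx; linarith)
      simp [this]
  rw [h1, ← intervalIntegral.integral_of_le hw.le]
  have hder : ∀ x ∈ uIcc 0 w, HasDerivAt (fun x => (-x ^ 2 + (w - 1) * x - 1) * Real.exp (-x))
      ((1 - x) * (w - x) * Real.exp (-x)) x := by
    intro x _
    have hp : HasDerivAt (fun x : ℝ => -x ^ 2 + (w - 1) * x - 1) (-(2 * x) + (w - 1)) x := by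
      have h1 : HasDerivAt (fun x : ℝ => x ^ 2) (2 * x) x := by
        simpa using hasDerivAt_pow 2 x
      have h2 : HasDerivAt (fun x : ℝ => (w - 1) * x) (w - 1) x := by
        simpa using (hasDerivAt_id x).const_mul (w - 1)
      exact (h1.neg.add h2).sub_const 1
    have he : HasDerivAt (fun x : ℝ => Real.exp (-x)) (-Real.exp (-x)) x := by
      simpa using (hasDerivAt_neg x).exp
    exact (hp.mul he).congr_deriv (by ring)
  rw [intervalIntegral.integral_eq_sub_of_hasDerivAt hder]
  · simp
    ring
  · apply Continuous.intervalIntegrable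
    fun_prop

theorem Psi_pos (w : ℝ) : Psi pos w = 1 - Crest.AlgGeometry.truncExpWeight w := by
  unfold Crest.AlgGeometry.truncExpWeight
  split_ifs with h
  · rw [Psi_pos_of_nonpos h]; ring
  · rw [Psi_pos_of_pos (not_le.mp h)]

theorem integrable_quad_μe (C : ℝ) : Integrable (fun x : ℝ => (1 + |x|) * (C + |x|)) μe := by
  have h : Integrable (fun x : ℝ => C + (C + 1) * |x| + x ^ 2) μe :=
    ((integrable_const _).add (integrable_abs_μe.const_mul _)).add (integrable_pow_μe 2)
  refine h.congr ?_
  filter_upwards with x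
  have : |x| * |x| = x ^ 2 := by rw [← abs_mul, ← sq, abs_of_nonneg (sq_nonneg x)]
  nlinarith

theorem Adm.integrable_Psi {A : ℝ → ℝ} (hA : Adm A) (w : ℝ) :
    Integrable (fun x => (1 - x) * A (w - x)) μe := by
  refine Integrable.mono' (integrable_quad_μe (A 0 + |w|))
    ((by fun_prop : Measurable fun x : ℝ => 1 - x).mul
      (hA.mono.measurable.comp (by fun_prop))).aestronglyMeasurable ?_
  filter_upwards with x
  rw [Real.norm_eq_abs, abs_mul, abs_of_nonneg (hA.nonneg _)]
  have h1 : |1 - x| ≤ 1 + |x| := by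
    have := abs_sub (1:ℝ) x
    simpa using this
  have h2 : A (w - x) ≤ A 0 + |w| + |x| := by
    have := hA.le_growth (w - x)
    have h3 := abs_sub w x
    linarith
  exact mul_le_mul h1 h2 (hA.nonneg _) (by positivity)

theorem Adm.integrable_prod {A : ℝ → ℝ} (hA : Adm A) (a w : ℝ) :
    Integrable (Function.uncurry fun t x : ℝ => (1 - x) * A (w + a * t - x)) (μe.prod μe) := by
  have hd1 : Integrable (fun z : ℝ × ℝ => (1:ℝ) * ((1 + |z.2|) * (A 0 + |w| + |z.2|))) (μe.prod μe) :=
    Integrable.mul_prod (integrable_const (1:ℝ)) (integrable_quad_μe (A 0 + |w|))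
  have hd2 : Integrable (fun z : ℝ × ℝ => (|a| * |z.1|) * (1 + |z.2|)) (μe.prod μe) :=
    Integrable.mul_prod (integrable_abs_μe.const_mul _) ((integrable_const (1:ℝ)).add integrable_abs_μe)
  refine Integrable.mono' (hd1.add hd2) ?_ ?_
  · apply Measurable.aestronglyMeasurable
    unfold Function.uncurry
    exact (by fun_prop : Measurable fun z : ℝ × ℝ => 1 - z.2).mul
      (hA.mono.measurable.comp (by fun_prop))
  · filter_upwards with z
    simp only [Function.uncurry, Pi.add_apply]
    rw [Real.norm_eq_abs, abs_mul, abs_of_nonneg (hA.nonneg _)]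
    have h1 : |1 - z.2| ≤ 1 + |z.2| := by
      have := abs_sub (1:ℝ) z.2
      simpa using this
    have h2 : A (w + a * z.1 - z.2) ≤ A 0 + |w| + |z.2| + |a| * |z.1| := by
      have := hA.le_growth (w + a * z.1 - z.2)
      have h3 := abs_sub (w + a * z.1) z.2
      have h4 := abs_add_le w (a * z.1)
      rw [abs_mul] at h4
      linarith
    calc |1 - z.2| * A (w + a * z.1 - z.2)
        ≤ (1 + |z.2|) * (A 0 + |w| + |z.2| + |a| * |z.1|) :=
          mul_le_mul h1 h2 (hA.nonneg _) (by positivity)
      _ = 1 * ((1 + |z.2|) * (A 0 + |w| + |z.2|)) + |a| * |z.1| * (1 + |z.2|) := by ring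

/-- `T a` commutes with the pairing. -/
theorem T_Psi {A : ℝ → ℝ} (hA : Adm A) (a w : ℝ) : T a (Psi A) w = Psi (T a A) w := by
  unfold T Psi
  rw [integral_integral_swap (hA.integrable_prod a w)]
  apply integral_congr_ae
  filter_upwards with x
  rw [integral_const_mul]
  congr 2
  ext t
  congr 1
  ring

end Crest.Agent.S0423aux
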